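import Vale.Agent.P233.Bd3.B1

/-! P233, block B14, static part: the weak `Γ₂` with the weight `1 + r`. -/

set_option linter.all false

open MeasureTheory Filter Topology Set
open scoped ENNReal NNReal

namespace Vale.Agent.P233

variable {M : Type*} [MeasurableSpace M] {m : Measure M} {C : Calc m}

/-- weak `Γ₂(f)` tested with the weight `1 + r` -/
noncomputable def Calc.G2r (C : Calc m) (f r : M →ₘ[m] ℝ) : ℝ :=
  -((2 : ℝ)⁻¹ * I (C.Γ (C.Γ f f) r)) - I ((1 + r) * C.Γ f (C.lap f))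

namespace IsGamma

variable (hC : IsGamma C) {κ : ℝ} (hB : C.BEi κ)
variable {f g h r v G φ ψ D : M →ₘ[m] ℝ}

include hC hB in
/-- from weights in `A` to weights `1 + r` -/
theorem le_one_add [SigmaFinite m] (hG : MemLp G 1 m) (hv : v ∈ C.W) (hv1 : MemLp v 1 m)
    (hr : r ∈ C.A) (hr0 : 0 ≤ 1 + r)
    (H : ∀ φ ∈ C.A, 0 ≤ φ → I (φ * G) ≤ -I (C.Γ v φ)) :
    I ((1 + r) * G) ≤ -I (C.Γ v r) := by
  have hD := hC.toIsDir
  obtain ⟨χ, Λ, hT, h0, h1, hconv, hlb, hl0, hΓ⟩ := hC.exists_cut hB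
  obtain ⟨R, hR⟩ := mem_top_iff.1 hr.2
  have hA : ∀ k, χ k * (1 + r) ∈ C.A := by
    intro k
    rw [mul_add, mul_one]
    exact hD.A_add (hC.test_A (hT k)) (hD.mul_mem_A (hC.test_A (hT k)) hr)
  have key : ∀ k, I (χ k * (1 + r) * G) ≤ -I (C.Γ v (χ k * (1 + r))) := fun k =>
    H _ (hA k) (mul_nonneg (h0 k) hr0)
  have hconv' : ∀ᵐ x ∂m, Tendsto (fun k => χ k x) atTop (𝓝 ((1 : M →ₘ[m] ℝ) x)) := by
    filter_upwards [hconv, one_ae (M := M) (m := m)] with x b1 b2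
    rw [b2]; exact b1
  have hl0' : ∀ᵐ x ∂m, Tendsto (fun k => C.lap (χ k) x) atTop (𝓝 ((0 : M →ₘ[m] ℝ) x)) := by
    filter_upwards [hl0, zero_ae (M := M) (m := m)] with x b1 b2
    rw [b2]; exact b1
  have hrt : MemLp (1 + r : M →ₘ[m] ℝ) ∞ m := mem_add mem_top_one hr.2
  have t1 := I_tendsto_of_bdd h1 hconv' (mem_mul_top hrt hG)
  have t2 := I_tendsto_of_bdd hlb hl0' hv1
  have t3 := I_tendsto_of_bdd h1 hconv' (hD.Γ_mem1 hv hr.1)
  rw [zero_mul, I_zero] at t2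
  rw [one_mul] at t1 t3
  have hr2 := hC.memLp _ hr.1
  have hvv := hC.mem1 _ hv
  have t4 : Tendsto (fun k => I (r * C.Γ v (χ k))) atTop (𝓝 (I (0 : M →ₘ[m] ℝ))) := by
    refine I_tendsto_of_dominated (G := fun x => √|Λ| * (|(r ^ 2 : M →ₘ[m] ℝ) x| + |C.Γ v v x|))
      (((int_of_mem (mem_sq hr2)).abs.add (int_of_mem hvv).abs).const_mul _) (fun k => ?_) ?_
    · filter_upwards [mul_ae r (C.Γ v (χ k)), hD.Γ_abs_ae hv (hC.test_A (hT k)).1, hΓ k,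
        sq_ae r, hD.Γ_nonneg_ae hv] with x a1 a2 a3 a4 a5
      rw [a1, abs_mul, a4]
      have e1 : √(C.Γ (χ k) (χ k) x) ≤ √|Λ| := by
        apply Real.sqrt_le_sqrt
        calc C.Γ (χ k) (χ k) x ≤ |C.Γ (χ k) (χ k) x| := le_abs_self _
          _ ≤ Λ * ((k : ℝ) + 1)⁻¹ := a3
          _ ≤ |Λ| * ((k : ℝ) + 1)⁻¹ := by
            apply mul_le_mul_of_nonneg_right (le_abs_self _) (by positivity)
          _ ≤ |Λ| * 1 := by
            apply mul_le_mul_of_nonneg_left _ (abs_nonneg _)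
            apply inv_le_one_of_one_le₀
            have : (0 : ℝ) ≤ k := Nat.cast_nonneg k
            linarith
          _ = |Λ| := mul_one _
      have e2 : |C.Γ v (χ k) x| ≤ √(C.Γ v v x) * √|Λ| :=
        a2.trans (mul_le_mul_of_nonneg_left e1 (Real.sqrt_nonneg _))
      have e3 : |r x| * √(C.Γ v v x) ≤ |r x ^ 2| + |C.Γ v v x| := by
        have s1 := Real.sq_sqrt a5
        rw [abs_of_nonneg (sq_nonneg (r x)), abs_of_nonneg a5]
        nlinarith [sq_nonneg (|r x| - √(C.Γ v v x)), sq_abs (r x), abs_nonneg (r x),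
          Real.sqrt_nonneg (C.Γ v v x), s1, mul_nonneg (abs_nonneg (r x))
            (Real.sqrt_nonneg (C.Γ v v x))]
      calc |r x| * |C.Γ v (χ k) x| ≤ |r x| * (√(C.Γ v v x) * √|Λ|) :=
            mul_le_mul_of_nonneg_left e2 (abs_nonneg _)
        _ = √|Λ| * (|r x| * √(C.Γ v v x)) := by ring
        _ ≤ _ := mul_le_mul_of_nonneg_left e3 (Real.sqrt_nonneg _)
    · filter_upwards [ae_all_iff.2 fun k => mul_ae r (C.Γ v (χ k)),
        ae_all_iff.2 fun k => hD.Γ_abs_ae hv (hC.test_A (hT k)).1, ae_all_iff.2 hΓ,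
        zero_ae (M := M) (m := m)] with x a1 a2 a3 a4
      simp_rw [a1]
      rw [a4]
      have l1 : Tendsto (fun k : ℕ => |r x| * (√(C.Γ v v x) * √(Λ * ((k : ℝ) + 1)⁻¹))) atTop
          (𝓝 (|r x| * (√(C.Γ v v x) * √(Λ * 0)))) :=
        (((Real.continuous_sqrt.tendsto _).comp (tendsto_inv_succ.const_mul Λ)).const_mul
          _).const_mul _
      rw [mul_zero, Real.sqrt_zero, mul_zero, mul_zero] at l1
      refine squeeze_zero_norm (fun k => ?_) l1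
      rw [Real.norm_eq_abs, abs_mul]
      refine mul_le_mul_of_nonneg_left ((a2 k).trans ?_) (abs_nonneg _)
      exact mul_le_mul_of_nonneg_left (Real.sqrt_le_sqrt ((le_abs_self _).trans (a3 k)))
        (Real.sqrt_nonneg _)
  rw [I_zero] at t4
  have e1 : ∀ k, I (χ k * (1 + r) * G) = I (χ k * ((1 + r) * G)) := fun k => by rw [mul_assoc]
  have e2 : ∀ k, I (C.Γ v (χ k * (1 + r))) =
      -I (C.lap (χ k) * v) + (I (χ k * C.Γ v r) + I (r * C.Γ v (χ k))) := by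
    intro k
    have cA := hC.test_A (hT k)
    have s1 : I (C.Γ v (χ k)) = -I (C.lap (χ k) * v) := by
      rw [hC.symm _ hv _ cA.1]
      exact (hC.test_isLap (hT k)).2.2 _ hv
    have m1 : MemLp (χ k * C.Γ v r : M →ₘ[m] ℝ) 1 m := mem_mul_top cA.2 (hD.Γ_mem1 hv hr.1)
    have m2 : MemLp (r * C.Γ v (χ k) : M →ₘ[m] ℝ) 1 m := mem_mul_top hr.2 (hD.Γ_mem1 hv cA.1)
    rw [mul_add, mul_one, hD.Γ_add_right hv cA.1 (hD.mul_mem_A cA hr).1,
      hD.Γ_mul_right cA hr hv, I_add (hD.Γ_mem1 hv cA.1) (mem_add m1 m2), I_add m1 m2, s1]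
  have l1 : Tendsto (fun k => I (χ k * (1 + r) * G)) atTop (𝓝 (I ((1 + r) * G))) := by
    simp_rw [e1]; exact t1
  have l2 : Tendsto (fun k => -I (C.Γ v (χ k * (1 + r)))) atTop (𝓝 (-I (C.Γ v r))) := by
    simp_rw [e2]
    have := (t2.neg.add (t3.add t4)).neg
    simpa using this
  exact le_of_tendsto_of_tendsto' l1 l2 key

include hC in
theorem bochner_weakN {K N : ℝ} (hN : 0 < N) (hBE : C.BE K N) (hf : f ∈ C.Test) (hφ : φ ∈ C.A)
    (h0 : 0 ≤ φ) :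
    I (φ * (C.Γ f (C.lap f) + K • C.Γ f f + N⁻¹ • C.lap f ^ 2))
      ≤ -((2 : ℝ)⁻¹ * I (C.Γ (C.Γ f f) φ)) := by
  have hB := hC.bei hN hBE
  have hD := hC.toIsDir
  have hfA := hC.test_A hf
  have hfL := hC.test_isLap hf
  have hfLW := hC.test_lap_mem hf
  have hv := (hC.Γ_mem hB hf hf).1
  have hφ2 := hC.memLp φ hφ.1
  obtain ⟨R, hR⟩ := mem_top_iff.1 hφ.2
  have hl : ∀ n : ℕ, (0 : ℝ) < ((n : ℝ) + 1)⁻¹ := fun n => by positivity
  set G := C.Γ f (C.lap f) + K • C.Γ f f + N⁻¹ • C.lap f ^ 2 with hG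
  have hG1 : MemLp G 1 m := mem_add (hC.bracket_mem K hfA.1 hfLW)
    (mem_smul _ (mem_sq (hC.memLp _ hfLW)))
  set u : ℕ → M →ₘ[m] ℝ := fun n => C.J ((n : ℝ) + 1)⁻¹ φ with hu
  have huW : ∀ n, u n ∈ C.W := fun n => hD.J_mem (hl n) hφ2
  have huK : ∀ n, ∀ᵐ x ∂m, |u n x| ≤ R := fun n => hD.J_bdd (hl n) hφ2 hR
  have hut : ∀ n, MemLp (u n) ∞ m := fun n => mem_top_iff.2 ⟨R, huK n⟩
  have hlimW : Tendsto (fun n => C.nrm2 (u n - φ)) atTop (𝓝 0) := hD.J_tendsto_W hφ.1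
  have key : ∀ n, I (u n * G) ≤ -((2 : ℝ)⁻¹ * I (C.Γ (C.Γ f f) (u n))) := by
    intro n
    have hL := hD.J_isLap (hl n) hφ2
    have h1 : I (u n * G) ≤
        I ((2 : ℝ)⁻¹ • (C.Γ f f * ((((n : ℝ) + 1)⁻¹)⁻¹ • (u n - φ)))) :=
      hBE _ _ _ _ hfL hfLW hL (hD.J_nonneg (hl n) hφ2 h0) (hut n)
      (mem_smul _ (mem_sub (hut n) hφ.2))
    rw [I_smul] at h1
    have h2 : I (C.Γ (u n) (C.Γ f f)) =
        -I ((((n : ℝ) + 1)⁻¹)⁻¹ • (u n - φ) * C.Γ f f) := hL.2.2 _ hv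
    rw [hD.symm _ (huW n) _ hv, mul_comm _ (C.Γ f f)] at h2
    rw [h2]
    linarith only [h1]
  obtain ⟨ns, hns, hae⟩ := exists_subseq_of_I_sq (fun n => hC.memLp _ (huW n)) hφ2
    (hD.tendsto_I_sq_of_nrm2 huW hφ.1 hlimW)
  have l1 : Tendsto (fun n => I (u (ns n) * G)) atTop (𝓝 (I (φ * G))) := by
    refine I_tendsto_of_dominated (G := fun x => R * |G x|) ((int_of_mem hG1).abs.const_mul R)
      (fun n => ?_) ?_
    · filter_upwards [mul_ae (u (ns n)) G, huK (ns n)] with x a1 a2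
      rw [a1, abs_mul]
      exact mul_le_mul_of_nonneg_right a2 (abs_nonneg _)
    · filter_upwards [ae_all_iff.2 fun n => mul_ae (u (ns n)) G, mul_ae φ G, hae] with x a1 a2 a3
      simp_rw [a1, a2]
      exact a3.mul_const _
  have l2 : Tendsto (fun n => I (C.Γ (C.Γ f f) (u n))) atTop (𝓝 (I (C.Γ (C.Γ f f) φ))) := by
    rw [tendsto_iff_dist_tendsto_zero]
    have h1 := hD.tendsto_E_of_nrm2 huW hφ.1 hlimW
    have h2 : Tendsto (fun n => Real.sqrt (I (C.Γ (C.Γ f f) (C.Γ f f))) *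
        Real.sqrt (I (C.Γ (u n - φ) (u n - φ)))) atTop (𝓝 0) := by
      have := ((Real.continuous_sqrt.tendsto 0).comp h1).const_mul
        (Real.sqrt (I (C.Γ (C.Γ f f) (C.Γ f f))))
      simpa [Function.comp_def] using this
    refine squeeze_zero (fun n => dist_nonneg) (fun n => ?_) h2
    rw [Real.dist_eq, ← I_sub (hD.Γ_mem1 hv (huW n)) (hD.Γ_mem1 hv hφ.1),
      ← hD.Γ_sub_right hv (huW n) hφ.1]
    exact hD.E_abs_le hv (hD.sub_mem (huW n) hφ.1)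
  have l3 : Tendsto (fun n => -((2 : ℝ)⁻¹ * I (C.Γ (C.Γ f f) (u (ns n))))) atTop
      (𝓝 (-((2 : ℝ)⁻¹ * I (C.Γ (C.Γ f f) φ)))) :=
    ((l2.comp hns.tendsto_atTop).const_mul _).neg
  exact le_of_tendsto_of_tendsto' l1 l3 fun n => key (ns n)


section static
include hC

theorem G2r_int (hf : f ∈ C.Test) (hr : r ∈ C.A) :
    MemLp ((1 + r) * C.Γ f (C.lap f) : M →ₘ[m] ℝ) 1 m :=
  mem_mul_top (mem_add mem_top_one hr.2) (hC.toIsDir.Γ_mem1 (hC.test_A hf).1 (hC.test_lap_mem hf))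

include hB in
theorem G2r_eq (hf : f ∈ C.Test) (hr : r ∈ C.A) :
    C.G2r f r = C.NN κ f f r + κ * I (r * C.Γ f f) + I (C.lap f ^ 2) := by
  have hD := hC.toIsDir
  have h1 := hD.Γ_mem1 (hC.test_A hf).1 (hC.test_lap_mem hf)
  have h2 : MemLp (r * C.Γ f (C.lap f) : M →ₘ[m] ℝ) 1 m := mem_mul_top hr.2 h1
  unfold Calc.G2r Calc.NN
  rw [add_mul, one_mul, I_add h1 h2, mul_add, I_add h2 h2, hC.Γ_lap_I hB hf]
  ring

include hB in
/-- `Γ₂ ≥ K Γ + (Δf)²/N` with the weight `1 + r` -/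
theorem G2r_ge [SigmaFinite m] {K N : ℝ} (hN : 0 < N) (hBE : C.BE K N) (hf : f ∈ C.Test)
    (hr : r ∈ C.A) (hr0 : 0 ≤ 1 + r) :
    K * I ((1 + r) * C.Γ f f) + N⁻¹ * I ((1 + r) * C.lap f ^ 2) ≤ C.G2r f r := by
  have hD := hC.toIsDir
  have fW := (hC.test_A hf).1
  have hv := hC.Γ_self_mem hB hf
  have h1 := hD.Γ_mem1 fW (hC.test_lap_mem hf)
  have h2 := hC.mem1 _ fW
  have h3 : MemLp (C.lap f ^ 2 : M →ₘ[m] ℝ) 1 m := mem_sq (hC.memLp _ (hC.test_lap_mem hf))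
  have hrt : MemLp (1 + r : M →ₘ[m] ℝ) ∞ m := mem_add mem_top_one hr.2
  have hG : MemLp (C.Γ f (C.lap f) + K • C.Γ f f + N⁻¹ • C.lap f ^ 2 : M →ₘ[m] ℝ) 1 m :=
    mem_add (mem_add h1 (mem_smul _ h2)) (mem_smul _ h3)
  have key := hC.le_one_add hB (G := (2 : ℝ) •
    (C.Γ f (C.lap f) + K • C.Γ f f + N⁻¹ • C.lap f ^ 2)) (v := C.Γ f f)
    (mem_smul _ hG) hv h2 hr hr0 (fun φ hφ hφ0 => by
      have := hC.bochner_weakN hN hBE hf hφ hφ0
      rw [mul_smul_comm, I_smul]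
      linarith)
  have e1 : I ((1 + r) * ((2 : ℝ) • (C.Γ f (C.lap f) + K • C.Γ f f + N⁻¹ • C.lap f ^ 2))) =
      2 * (I ((1 + r) * C.Γ f (C.lap f)) + K * I ((1 + r) * C.Γ f f)
        + N⁻¹ * I ((1 + r) * C.lap f ^ 2)) := by
    rw [mul_smul_comm, I_smul, mul_add, mul_add, mul_smul_comm, mul_smul_comm,
      I_add (mem_add (mem_mul_top hrt h1) (mem_smul _ (mem_mul_top hrt h2)))
        (mem_smul _ (mem_mul_top hrt h3)),
      I_add (mem_mul_top hrt h1) (mem_smul _ (mem_mul_top hrt h2)), I_smul, I_smul]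
  rw [e1] at key
  unfold Calc.G2r
  linarith

include hB in
/-- the improved Bochner inequality with the weight `1 + r` -/
theorem G2r_ge_hess [SigmaFinite m] (hf : f ∈ C.Test) (hD2 : MemLp D 2 m)
    (H : ∀ φ ∈ C.A, 0 ≤ φ → I (φ * D ^ 2) ≤ C.NN κ f f φ)
    (hr : r ∈ C.A) (hr0 : 0 ≤ 1 + r) :
    κ * I ((1 + r) * C.Γ f f) + I ((1 + r) * D ^ 2) ≤ C.G2r f r := by
  have hD := hC.toIsDir
  have fW := (hC.test_A hf).1
  have hv := hC.Γ_self_mem hB hf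
  have h1 := hD.Γ_mem1 fW (hC.test_lap_mem hf)
  have h2 := hC.mem1 _ fW
  have h3 : MemLp (D ^ 2 : M →ₘ[m] ℝ) 1 m := mem_sq hD2
  have hrt : MemLp (1 + r : M →ₘ[m] ℝ) ∞ m := mem_add mem_top_one hr.2
  have hG : MemLp (C.Γ f (C.lap f) + κ • C.Γ f f + D ^ 2 : M →ₘ[m] ℝ) 1 m :=
    mem_add (mem_add h1 (mem_smul _ h2)) h3
  have ex : ∀ w : M →ₘ[m] ℝ, MemLp w ∞ m →
      I (w * ((2 : ℝ) • (C.Γ f (C.lap f) + κ • C.Γ f f + D ^ 2))) =
      2 * (I (w * C.Γ f (C.lap f)) + κ * I (w * C.Γ f f) + I (w * D ^ 2)) := by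
    intro w hw
    rw [mul_smul_comm, I_smul, mul_add, mul_add, mul_smul_comm,
      I_add (mem_add (mem_mul_top hw h1) (mem_smul _ (mem_mul_top hw h2)))
        (mem_mul_top hw h3),
      I_add (mem_mul_top hw h1) (mem_smul _ (mem_mul_top hw h2)), I_smul]
  have key := hC.le_one_add hB (G := (2 : ℝ) •
    (C.Γ f (C.lap f) + κ • C.Γ f f + D ^ 2)) (v := C.Γ f f)
    (mem_smul _ hG) hv h2 hr hr0 (fun φ hφ hφ0 => by
      have := H φ hφ hφ0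
      rw [ex φ hφ.2]
      have e2 : MemLp (φ * C.Γ f (C.lap f) : M →ₘ[m] ℝ) 1 m := mem_mul_top hφ.2 h1
      unfold Calc.NN at this
      rw [mul_add, I_add e2 e2] at this
      linarith)
  rw [ex _ hrt] at key
  unfold Calc.G2r
  linarith

include hB in
theorem G2r_smul (c : ℝ) (hf : f ∈ C.Test) (hr : r ∈ C.A) :
    C.G2r (c • f) r = c ^ 2 * C.G2r f r := by
  have fW := (hC.test_A hf).1
  rw [hC.G2r_eq hB (hC.test_smul hB c hf) hr, hC.G2r_eq hB hf hr,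
    hC.NN_smul_left hB c hf (hC.test_smul hB c hf) hr,
    hC.NN_symm hB hf (hC.test_smul hB c hf), hC.NN_smul_left hB c hf hf hr,
    hC.lap_smul hB c hf, hC.smul_left c f fW _ (hC.smul_mem c f fW),
    hC.toIsDir.Γ_smul_right c fW fW, mul_smul_comm, mul_smul_comm, I_smul, I_smul]
  have : (c • C.lap f) ^ 2 = (c ^ 2) • C.lap f ^ 2 := smul_pow c (C.lap f) 2
  rw [this, I_smul]
  ring

include hB in
/-- parallelogram law -/
theorem G2r_parallel (hf : f ∈ C.Test) (hg : g ∈ C.Test) (hr : r ∈ C.A) :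
    C.G2r (f + g) r + C.G2r (f - g) r = 2 * C.G2r f r + 2 * C.G2r g r := by
  have hng : (-1 : ℝ) • g ∈ C.Test := hC.test_smul hB (-1) hg
  have e0 : f - g = f + (-1 : ℝ) • g := by rw [neg_one_smul, sub_eq_add_neg]
  have key : ∀ c : ℝ, C.G2r (f + c • g) r = C.G2r f r + 2 * c * (C.NN κ f g r
      + κ * I (r * C.Γ f g) + I (C.lap f * C.lap g)) + c ^ 2 * C.G2r g r := by
    intro c
    have fW := (hC.test_A hf).1
    have gW := (hC.test_A hg).1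
    have q1 : MemLp (r * C.Γ f f : M →ₘ[m] ℝ) 1 m := mem_mul_top hr.2 (hC.mem1 _ fW)
    have q2 : MemLp (r * C.Γ g g : M →ₘ[m] ℝ) 1 m := mem_mul_top hr.2 (hC.mem1 _ gW)
    have q3 : MemLp (r * C.Γ f g : M →ₘ[m] ℝ) 1 m :=
      mem_mul_top hr.2 (hC.toIsDir.Γ_mem1 fW gW)
    have e3 : I (r * C.Γ (f + c • g) (f + c • g)) = I (r * C.Γ f f) + 2 * c * I (r * C.Γ f g)
        + c ^ 2 * I (r * C.Γ g g) := by
      rw [hC.toIsDir.Γ_expand c fW gW, mul_add, mul_add, mul_smul_comm, mul_smul_comm,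
        I_add (mem_add q1 (mem_smul _ q3)) (mem_smul _ q2), I_add q1 (mem_smul _ q3), I_smul,
        I_smul]
    have hcg := hC.test_smul hB c hg
    have hs := hC.test_add hB hf hcg
    have h1 := hC.memLp _ (hC.test_lap_mem hf)
    have h2 := hC.memLp _ (hC.test_lap_mem hg)
    have m1 : MemLp (C.lap f ^ 2 : M →ₘ[m] ℝ) 1 m := mem_sq h1
    have m2 : MemLp (C.lap g ^ 2 : M →ₘ[m] ℝ) 1 m := mem_sq h2
    have m3 : MemLp (C.lap f * C.lap g : M →ₘ[m] ℝ) 1 m := mem_mul_22 h1 h2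
    have e1 : (C.lap f + c • C.lap g) ^ 2 = C.lap f ^ 2 + (2 * c) • (C.lap f * C.lap g)
        + (c ^ 2) • C.lap g ^ 2 := by
      have a1 : (c • C.lap g) ^ 2 = (c ^ 2) • C.lap g ^ 2 := smul_pow c (C.lap g) 2
      rw [add_sq, a1, mul_smul_comm, mul_assoc]
      congr 2
      rw [mul_comm 2 c, mul_smul, two_smul, two_mul]
    rw [hC.G2r_eq hB hs hr, hC.G2r_eq hB hf hr, hC.G2r_eq hB hg hr, hC.lap_add hB hf hcg,
      hC.lap_smul hB c hg, e1, I_add (mem_add m1 (mem_smul _ m3)) (mem_smul _ m2),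
      I_add m1 (mem_smul _ m3), I_smul, I_smul, e3, hC.NN_add_left hB hf hcg hs hr,
      hC.NN_symm hB hf hs, hC.NN_symm hB hcg hs, hC.NN_add_left hB hf hcg hf hr,
      hC.NN_add_left hB hf hcg hcg hr, hC.NN_smul_left hB c hg hf hr,
      hC.NN_smul_left hB c hg hcg hr, hC.NN_symm hB hf hcg, hC.NN_symm hB hg hcg,
      hC.NN_smul_left hB c hg hf hr, hC.NN_smul_left hB c hg hg hr, hC.NN_symm hB hg hf]
    ring
  have k1 := key 1
  have k2 := key (-1)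
  rw [one_smul] at k1
  rw [e0, k1, k2]
  ring


include hB in
/-- integration by parts with the weight `1 + r` -/
theorem parts_one_add (hf : f ∈ C.Test) (hg : g ∈ C.A) (hr : r ∈ C.A) :
    I (g * C.Γ r f) = -I ((1 + r) * (g * C.lap f)) - I ((1 + r) * C.Γ g f) := by
  have hD := hC.toIsDir
  have fW := (hC.test_A hf).1
  have fL := hC.test_isLap hf
  have l2 := hC.memLp _ (hC.test_lap_mem hf)
  have g2 := hC.memLp _ hg.1
  have a1 : MemLp (g * C.lap f : M →ₘ[m] ℝ) 1 m := mem_mul_22 g2 l2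
  have a2 := hD.Γ_mem1 hg.1 fW
  have a3 : MemLp (r * (g * C.lap f) : M →ₘ[m] ℝ) 1 m := mem_mul_top hr.2 a1
  have a4 : MemLp (r * C.Γ g f : M →ₘ[m] ℝ) 1 m := mem_mul_top hr.2 a2
  have a5 : MemLp (g * C.Γ r f : M →ₘ[m] ℝ) 1 m := mem_mul_top hg.2 (hD.Γ_mem1 hr.1 fW)
  have rg := hD.mul_mem_A hr hg
  have e1 : I (C.Γ (r * g) f) = -I (r * (g * C.lap f)) := by
    rw [hC.symm _ rg.1 _ fW]
    have : I (C.Γ f (r * g)) = -I (C.lap f * (r * g)) := fL.2.2 _ rg.1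
    rw [this]
    congr 2
    ring
  have e2 : I (C.Γ g f) = -I (g * C.lap f) := by
    rw [hC.symm _ hg.1 _ fW]
    have : I (C.Γ f g) = -I (C.lap f * g) := fL.2.2 _ hg.1
    rw [this, mul_comm]
  rw [hD.Γ_mul_left hr hg fW, I_add a4 a5] at e1
  rw [add_mul, one_mul, add_mul, one_mul, I_add a1 a3, I_add a2 a4]
  linarith

include hB in
/-- the `L⁴` bound of the gradient of `L = log (1 + r)` -/
theorem quartic (hf : f ∈ C.Test) (hr : r ∈ C.A) (hr0 : 0 ≤ 1 + r)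
    (hrf : ∀ h ∈ C.W, C.Γ r h = (1 + r) * C.Γ f h) (hD2 : MemLp D 2 m)
    (hDb : ∀ᵐ x ∂m, |C.hess f f f x| ≤ D x * C.Γ f f x) :
    I ((1 + r) * C.Γ f f ^ 2) ≤ 2 * I ((1 + r) * C.lap f ^ 2) + 8 * I ((1 + r) * D ^ 2) := by
  have hD := hC.toIsDir
  have fW := (hC.test_A hf).1
  have wA := hC.Γ_mem hB hf hf
  have w2 := hC.memLp _ wA.1
  have l2 := hC.memLp _ (hC.test_lap_mem hf)
  have hrt : MemLp (1 + r : M →ₘ[m] ℝ) ∞ m := mem_add mem_top_one hr.2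
  have key := hC.parts_one_add hB hf wA hr
  have e1 : C.Γ f f * C.Γ r f = (1 + r) * C.Γ f f ^ 2 := by
    rw [hrf f fW]; ring
  rw [e1] at key
  have m1 : MemLp (C.Γ f f ^ 2 : M →ₘ[m] ℝ) 1 m := mem_sq w2
  have m2 : MemLp (C.lap f ^ 2 : M →ₘ[m] ℝ) 1 m := mem_sq l2
  have m3 : MemLp (D ^ 2 : M →ₘ[m] ℝ) 1 m := mem_sq hD2
  have m4 : MemLp (C.Γ f f * C.lap f : M →ₘ[m] ℝ) 1 m := mem_mul_22 w2 l2
  have m5 := hD.Γ_mem1 wA.1 fW
  have b1 : -I ((1 + r) * (C.Γ f f * C.lap f)) ≤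
      4⁻¹ * I ((1 + r) * C.Γ f f ^ 2) + I ((1 + r) * C.lap f ^ 2) := by
    rw [← I_neg, ← I_smul, ← I_add (mem_smul _ (mem_mul_top hrt m1)) (mem_mul_top hrt m2)]
    refine I_mono (mem_neg (mem_mul_top hrt m4))
      (mem_add (mem_smul _ (mem_mul_top hrt m1)) (mem_mul_top hrt m2)) ?_
    rw [le_iff_ae]
    filter_upwards [neg_ae ((1 + r) * (C.Γ f f * C.lap f)), mul_ae (1 + r) (C.Γ f f * C.lap f),
      mul_ae (C.Γ f f) (C.lap f), add_ae ((4 : ℝ)⁻¹ • ((1 + r) * C.Γ f f ^ 2))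
        ((1 + r) * C.lap f ^ 2), smul_ae ((1 + r) * C.Γ f f ^ 2) (4 : ℝ)⁻¹,
      mul_ae (1 + r) (C.Γ f f ^ 2), mul_ae (1 + r) (C.lap f ^ 2), sq_ae (C.Γ f f),
      sq_ae (C.lap f), nonneg_iff_ae.1 hr0] with x a1 a2 a3 a4 a5 a6 a7 a8 a9 a10
    rw [a1, a2, a3, a4, a5, a6, a7, a8, a9]
    nlinarith [mul_nonneg a10 (sq_nonneg (C.Γ f f x / 2 + C.lap f x))]
  have b2 : -I ((1 + r) * C.Γ (C.Γ f f) f) ≤
      4⁻¹ * I ((1 + r) * C.Γ f f ^ 2) + 4 * I ((1 + r) * D ^ 2) := by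
    rw [← I_neg, ← I_smul, ← I_smul, ← I_add (mem_smul _ (mem_mul_top hrt m1))
      (mem_smul _ (mem_mul_top hrt m3))]
    refine I_mono (mem_neg (mem_mul_top hrt m5))
      (mem_add (mem_smul _ (mem_mul_top hrt m1)) (mem_smul _ (mem_mul_top hrt m3))) ?_
    have eh : C.hess f f f = (2 : ℝ)⁻¹ • C.Γ f (C.Γ f f) := by
      unfold Calc.hess
      rw [add_sub_cancel_right]
    rw [le_iff_ae]
    filter_upwards [neg_ae ((1 + r) * C.Γ (C.Γ f f) f), mul_ae (1 + r) (C.Γ (C.Γ f f) f),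
      add_ae ((4 : ℝ)⁻¹ • ((1 + r) * C.Γ f f ^ 2)) ((4 : ℝ) • ((1 + r) * D ^ 2)),
      smul_ae ((1 + r) * C.Γ f f ^ 2) (4 : ℝ)⁻¹, smul_ae ((1 + r) * D ^ 2) (4 : ℝ),
      mul_ae (1 + r) (C.Γ f f ^ 2), mul_ae (1 + r) (D ^ 2), sq_ae (C.Γ f f),
      sq_ae D, nonneg_iff_ae.1 hr0, hDb, smul_ae (C.Γ f (C.Γ f f)) (2 : ℝ)⁻¹]
      with x a1 a2 a3 a4 a5 a6 a7 a8 a9 a10 a11 a12
    rw [eh, a12] at a11
    rw [a1, a2, a3, a4, a5, a6, a7, a8, a9, hC.symm _ wA.1 _ fW]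
    have c1 : |C.Γ f (C.Γ f f) x| ≤ 2 * (D x * C.Γ f f x) := by
      rw [abs_mul, abs_of_pos (by norm_num : (0:ℝ) < 2⁻¹)] at a11
      linarith
    have c2 := neg_abs_le (C.Γ f (C.Γ f f) x)
    have c3 : -C.Γ f (C.Γ f f) x ≤ 4⁻¹ * C.Γ f f x ^ 2 + 4 * D x ^ 2 := by
      nlinarith [sq_nonneg (C.Γ f f x / 2 - 2 * D x)]
    nlinarith [mul_le_mul_of_nonneg_left c3 a10]
  linarith

end static

end IsGamma

end Vale.Agent.P233
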