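import Mathlib

/-! P233, block B14, the real-variable part of the a priori bounds. -/

set_option linter.all false

open MeasureTheory Filter Topology Set

namespace Vale.Agent.P233.H53

/-- monotonicity from a lower bound of the derivative -/
theorem le_of_deriv_ge {a b κ : ℝ} {h h' : ℝ → ℝ}
    (hh : ∀ t ∈ Icc a b, HasDerivWithinAt h (h' t) (Icc a b) t)
    (hk : ∀ t ∈ Icc a b, -κ ≤ h' t) {r t : ℝ} (hr : r ∈ Icc a b) (ht : t ∈ Icc a b) (hrt : r ≤ t) :
    h r ≤ h t + κ * (t - r) := by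
  have hc : ContinuousOn (fun x => h x + κ * x) (Icc a b) := fun x hx =>
    ((hh x hx).continuousWithinAt).add (continuousWithinAt_const.mul continuousWithinAt_id)
  have hm : MonotoneOn (fun x => h x + κ * x) (Icc a b) := by
    refine monotoneOn_of_deriv_nonneg (convex_Icc a b) hc ?_ ?_
    · intro x hx
      rw [interior_Icc] at hx
      have h1 : HasDerivAt h (h' x) x :=
        (hh x (Ioo_subset_Icc_self hx)).hasDerivAt (Icc_mem_nhds hx.1 hx.2)
      exact (h1.add ((hasDerivAt_id x).const_mul κ)).differentiableAt.differentiableWithinAt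
    · intro x hx
      rw [interior_Icc] at hx
      have h1 : HasDerivAt h (h' x) x :=
        (hh x (Ioo_subset_Icc_self hx)).hasDerivAt (Icc_mem_nhds hx.1 hx.2)
      have h2 := (h1.add ((hasDerivAt_id x).const_mul κ)).deriv
      have h3 : deriv (fun x => h x + κ * x) x = h' x + κ * 1 := h2
      rw [h3]
      have := hk x (Ioo_subset_Icc_self hx)
      linarith
  have := hm hr ht hrt
  simp only at this
  linarith

/-- The a priori bounds B1-B3 from the energy identities. -/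
theorem energy_real {ε t₀ s b D K C₀ C₁ C₂ C₃ : ℝ} {A B H α β : ℝ → ℝ} (hε : 0 < ε)
    (h0s : t₀ < s) (hsb : s ≤ b)
    (hA : ∀ t ∈ Icc t₀ b, HasDerivWithinAt A (ε * α t) (Icc t₀ b) t)
    (hB : ∀ t ∈ Icc t₀ b, HasDerivWithinAt B (-(ε * β t)) (Icc t₀ b) t)
    (hH : ∀ t ∈ Icc t₀ b, HasDerivWithinAt H ((A t - B t) / (2 * ε)) (Icc t₀ b) t)
    (hα : ∀ t ∈ Icc t₀ b, K * A t ≤ α t) (hβ : ∀ t ∈ Icc t₀ b, K * B t ≤ β t)
    (hA0 : ∀ t ∈ Icc t₀ b, 0 ≤ A t) (hB0 : ∀ t ∈ Icc t₀ b, 0 ≤ B t)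
    (hA1 : ∀ t ∈ Icc t₀ b, A t ≤ C₁) (hB1 : ∀ t ∈ Icc t₀ b, B t ≤ C₁)
    (hH0 : ∀ t ∈ Icc t₀ b, |H t| ≤ C₀)
    (hend : |A b - B b| ≤ 2 * ε * C₂) (hend2 : A b + B b - 2 * D ≤ ε * C₃)
    {Cs : ℝ} (hCs : Cs = 2 * C₀ / (s - t₀) + C₂ + |K| * C₁ * (b - t₀)) :
    (∀ t ∈ Icc s b, |A t - B t| ≤ 2 * ε * Cs) ∧
    (∀ t ∈ Icc s b, A t + B t - 2 * D ≤ ε * (C₃ + 2 * (|K| * C₁ * (b - t₀)) + 4 * Cs)) ∧
    IntervalIntegrable (fun t => (α t + β t) / 2) volume s b ∧
    ∫ t in s..b, (α t + β t) / 2 ≤ 2 * Cs := by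
  set κ : ℝ := |K| * C₁ with hκ
  have hb0 : b ∈ Icc t₀ b := ⟨h0s.le.trans hsb, le_rfl⟩
  have ht0 : t₀ ∈ Icc t₀ b := ⟨le_rfl, h0s.le.trans hsb⟩
  have hC1 : 0 ≤ C₁ := (hA0 b hb0).trans (hA1 b hb0)
  have hC0 : 0 ≤ C₀ := (abs_nonneg _).trans (hH0 b hb0)
  have hC2 : 0 ≤ C₂ := by
    have := (abs_nonneg _).trans hend
    by_contra hc
    push Not at hc
    nlinarith
  have hκ0 : 0 ≤ κ := by positivity
  have hb : t₀ < b := h0s.trans_le hsb
  have kA : ∀ t ∈ Icc t₀ b, -κ ≤ α t := fun t ht => by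
    refine le_trans ?_ (hα t ht)
    have h1 := hA0 t ht
    have h2 := hA1 t ht
    have h3 : -|K| ≤ K := neg_abs_le K
    nlinarith [abs_nonneg K, mul_le_mul_of_nonneg_left h2 (abs_nonneg K),
      mul_le_mul_of_nonneg_right h3 h1]
  have kB : ∀ t ∈ Icc t₀ b, -κ ≤ β t := fun t ht => by
    refine le_trans ?_ (hβ t ht)
    have h1 := hB0 t ht
    have h2 := hB1 t ht
    have h3 : -|K| ≤ K := neg_abs_le K
    nlinarith [abs_nonneg K, mul_le_mul_of_nonneg_left h2 (abs_nonneg K),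
      mul_le_mul_of_nonneg_right h3 h1]
  -- the function `h = H'`
  set h : ℝ → ℝ := fun t => (A t - B t) / (2 * ε) with hh
  have hd : ∀ t ∈ Icc t₀ b, HasDerivWithinAt h ((α t + β t) / 2) (Icc t₀ b) t := by
    intro t ht
    have h1 := ((hA t ht).sub (hB t ht)).div_const (2 * ε)
    have e1 : (ε * α t - -(ε * β t)) / (2 * ε) = (α t + β t) / 2 := by
      field_simp
      ring
    rw [e1] at h1
    exact h1
  have hk : ∀ t ∈ Icc t₀ b, -κ ≤ (α t + β t) / 2 := fun t ht => by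
    have := kA t ht
    have := kB t ht
    linarith
  have hup : ∀ t ∈ Icc t₀ b, h t ≤ C₂ + κ * (b - t₀) := by
    intro t ht
    have h1 := le_of_deriv_ge hd hk ht hb0 ht.2
    have h2 : h b ≤ C₂ := by
      rw [hh]
      simp only
      rw [div_le_iff₀ (by positivity)]
      have := (abs_le.1 hend).2
      linarith
    have h3 : κ * (b - t) ≤ κ * (b - t₀) := mul_le_mul_of_nonneg_left (by linarith [ht.1]) hκ0
    linarith
  have hlow : ∀ t ∈ Icc s b, -(2 * C₀ / (s - t₀) + κ * (b - t₀)) ≤ h t := by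
    intro t ht
    have ht' : t ∈ Icc t₀ b := ⟨h0s.le.trans ht.1, ht.2⟩
    have htt : t₀ < t := h0s.trans_le ht.1
    have hcH : ContinuousOn H (Icc t₀ t) := fun x hx =>
      ((hH x ⟨hx.1, hx.2.trans ht.2⟩).continuousWithinAt).mono
        (Icc_subset_Icc le_rfl ht.2)
    obtain ⟨r, hr, hr2⟩ := exists_hasDerivAt_eq_slope H (fun x => h x) htt hcH (fun x hx => by
      have hx' : x ∈ Icc t₀ b := ⟨hx.1.le, hx.2.le.trans ht.2⟩
      exact (hH x hx').hasDerivAt (Icc_mem_nhds hx.1 (hx.2.trans_le ht.2)))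
    have hr' : r ∈ Icc t₀ b := ⟨hr.1.le, hr.2.le.trans ht.2⟩
    have h1 := le_of_deriv_ge hd hk hr' ht' hr.2.le
    have h2 : -(2 * C₀ / (s - t₀)) ≤ h r := by
      rw [hr2, neg_le_iff_add_nonneg]
      have hs0 : 0 < s - t₀ := by linarith
      have ht0' : 0 < t - t₀ := by linarith
      have g1 : -(2 * C₀) ≤ H t - H t₀ := by
        have := (abs_le.1 (hH0 t ht')).1
        have := (abs_le.1 (hH0 t₀ ht0)).2
        linarith
      have g2 : -(2 * C₀) / (t - t₀) ≤ (H t - H t₀) / (t - t₀) :=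
        div_le_div_of_nonneg_right g1 ht0'.le
      have g3 : 2 * C₀ / (t - t₀) ≤ 2 * C₀ / (s - t₀) :=
        div_le_div_of_nonneg_left (by positivity) hs0 (by linarith [ht.1])
      rw [neg_div] at g2
      linarith
    have h3 : κ * (t - r) ≤ κ * (b - t₀) :=
      mul_le_mul_of_nonneg_left (by linarith [hr.1, ht.2]) hκ0
    linarith
  have hCs0 : 0 ≤ 2 * C₀ / (s - t₀) := div_nonneg (by positivity) (by linarith)
  have hkb : 0 ≤ κ * (b - t₀) := mul_nonneg hκ0 (by linarith)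
  have habs : ∀ t ∈ Icc s b, |h t| ≤ Cs := by
    intro t ht
    have ht' : t ∈ Icc t₀ b := ⟨h0s.le.trans ht.1, ht.2⟩
    rw [abs_le, hCs]
    constructor
    · linarith [hlow t ht]
    · linarith [hup t ht']
  have h1 : ∀ t ∈ Icc s b, |A t - B t| ≤ 2 * ε * Cs := by
    intro t ht
    have := habs t ht
    rw [hh] at this
    simp only at this
    rw [abs_div, abs_of_pos (by positivity : (0:ℝ) < 2 * ε), div_le_iff₀ (by positivity)] at this
    linarith
  have hsub : Icc s b ⊆ Icc t₀ b := Icc_subset_Icc h0s.le le_rfl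
  have hdA : ∀ x ∈ Ioo s b, HasDerivAt h ((α x + β x) / 2) x := fun x hx =>
    (hd x (hsub (Ioo_subset_Icc_self hx))).hasDerivAt (Icc_mem_nhds (h0s.trans hx.1) hx.2)
  have hI : IntervalIntegrable (fun t => (α t + β t) / 2) volume s b := by
    rw [intervalIntegrable_iff_integrableOn_Ioc_of_le hsb]
    have hc : ContinuousOn (fun x => h x + κ * x) (Icc s b) := fun x hx =>
      (((hd x (hsub hx)).continuousWithinAt).mono hsub).add
        (continuousWithinAt_const.mul continuousWithinAt_id)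
    have := intervalIntegral.integrableOn_deriv_of_nonneg (g := fun x => h x + κ * x)
      (g' := fun x => (α x + β x) / 2 + κ) hc (fun x hx => ?_) (fun x hx => ?_)
    · have h2 := this.sub (integrableOn_const (μ := volume) (s := Ioc s b) (C := κ)
        (by simp) (by simp))
      refine h2.congr ?_
      filter_upwards with x
      simp
    · have h3 := (hdA x hx).add ((hasDerivAt_id x).const_mul κ)
      rw [mul_one] at h3
      exact h3
    · have := hk x (hsub (Ioo_subset_Icc_self hx))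
      linarith
  refine ⟨h1, ?_, hI, ?_⟩
  · intro t ht
    have ht' : t ∈ Icc t₀ b := hsub ht
    have e1 : A t ≤ A b + ε * κ * (b - t) := by
      refine le_of_deriv_ge (κ := ε * κ) hA (fun x hx => ?_) ht' hb0 ht.2
      have := mul_le_mul_of_nonneg_left (kA x hx) hε.le
      linarith
    have e2 := (abs_le.1 (h1 t ht)).1
    have e3 := (abs_le.1 (h1 b ⟨hsb, le_rfl⟩)).2
    have e4 : ε * κ * (b - t) ≤ ε * (κ * (b - t₀)) := by
      rw [mul_assoc]
      exact mul_le_mul_of_nonneg_left (mul_le_mul_of_nonneg_left (by linarith [ht'.1]) hκ0) hε.le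
    nlinarith
  · have hc : ContinuousOn h (Icc s b) := fun x hx =>
      ((hd x (hsub hx)).continuousWithinAt).mono hsub
    rw [intervalIntegral.integral_eq_sub_of_hasDerivAt_of_le hsb hc hdA hI]
    have := (abs_le.1 (habs s ⟨le_rfl, hsb⟩)).1
    have := (abs_le.1 (habs b ⟨hsb, le_rfl⟩)).2
    linarith

end Vale.Agent.P233.H53
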