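import Vale.Agent.P233.H53.TimeG

/-! P233, block B14: the four static identities behind B1. -/

set_option linter.all false

open MeasureTheory Filter Topology Set
open scoped ENNReal NNReal

namespace Vale.Agent.P233.H53

variable {M : Type*} [MeasurableSpace M] {m : Measure M} {C : Calc m}
variable {φ u r θ L g : M →ₘ[m] ℝ} {κ ε : ℝ}

theorem I_dot (hC : IsGamma C) (hB : C.BEi κ) (hθ : θ ∈ C.Test) (hr : r ∈ C.A) (hg : g ∈ C.A)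
    (hlb : MemLp (C.lap θ) 2 m) :
    I (-((1 + r) * C.lap θ + C.Γ θ r) * g) = I ((1 + r) * C.Γ g θ) := by
  have hD := hC.toIsDir
  have θW := (hC.test_A hθ).1
  have h1 := hC.parts_one_add hB hθ hg hr
  have g2 := hC.memLp _ hg.1
  have m1 : MemLp ((1 + r) * (g * C.lap θ) : M →ₘ[m] ℝ) 1 m :=
    mem_mul_top (mem_add mem_top_one hr.2) (mem_mul_22 g2 hlb)
  have m2 : MemLp (g * C.Γ r θ : M →ₘ[m] ℝ) 1 m := mem_mul_top hg.2 (hD.Γ_mem1 hr.1 θW)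
  have e1 : -((1 + r) * C.lap θ + C.Γ θ r) * g = -((1 + r) * (g * C.lap θ) + g * C.Γ r θ) := by
    rw [hC.symm _ θW _ hr.1]
    ring
  rw [e1, I_neg, I_add m1 m2]
  linarith

/-- data of one time -/
structure St (C : Calc m) (ε : ℝ) (φ u r θ L : M →ₘ[m] ℝ) : Prop where
  hε : 0 < ε
  φ_mem : φ ∈ C.TestI
  u_mem : u ∈ C.TestI
  r_mem : r ∈ C.A
  θ_eq : θ = (2 : ℝ)⁻¹ • (φ + u)
  L_eq : L = ε⁻¹ • (φ - u)
  Γr : ∀ g ∈ C.W, C.Γ r g = (1 + r) * C.Γ L g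

section
variable (hC : IsGamma C) (hB : C.BEi κ) (h : St C ε φ u r θ L)
include hC hB h

theorem St.φW : φ ∈ C.W := (hC.test_A h.φ_mem.1).1
theorem St.uW : u ∈ C.W := (hC.test_A h.u_mem.1).1
theorem St.θT : θ ∈ C.Test := by
  rw [h.θ_eq]
  exact hC.test_smul hB _ (hC.test_add hB h.φ_mem.1 h.u_mem.1)
theorem St.LT : L ∈ C.Test := by
  rw [h.L_eq, sub_eq_add_neg, ← neg_one_smul ℝ u]
  exact hC.test_smul hB _ (hC.test_add hB h.φ_mem.1 (hC.test_smul hB _ h.u_mem.1))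
theorem St.wT : MemLp (1 + r : M →ₘ[m] ℝ) ∞ m := mem_add mem_top_one h.r_mem.2

theorem St.φθ : θ = φ - (ε / 2) • L := by
  have := h.hε.ne'
  rw [h.θ_eq, h.L_eq, smul_smul]
  have : ε / 2 * ε⁻¹ = (2 : ℝ)⁻¹ := by field_simp
  rw [this, smul_add, smul_sub]
  have e : φ = (2 : ℝ)⁻¹ • φ + (2 : ℝ)⁻¹ • φ := by
    rw [← add_smul]; norm_num
  nth_rw 2 [e]
  abel

theorem St.uθ : θ = u + (ε / 2) • L := by
  have := h.hε.ne'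
  rw [h.θ_eq, h.L_eq, smul_smul]
  have : ε / 2 * ε⁻¹ = (2 : ℝ)⁻¹ := by field_simp
  rw [this, smul_add, smul_sub]
  have e : u = (2 : ℝ)⁻¹ • u + (2 : ℝ)⁻¹ • u := by
    rw [← add_smul]; norm_num
  nth_rw 2 [e]
  abel

/-- the derivative of `E|∇φ|²` -/
theorem E_A :
    I (-((1 + r) * C.lap θ + C.Γ θ r) * C.Γ φ φ + (1 + r) *
      (C.Γ (-((ε / 2) • C.lap φ) - (2 : ℝ)⁻¹ • C.Γ φ φ) φ
        + C.Γ φ (-((ε / 2) • C.lap φ) - (2 : ℝ)⁻¹ • C.Γ φ φ))) = ε * C.G2r φ r := by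
  have hD := hC.toIsDir
  have φW := h.φW hC hB
  have lW := hC.test_lap_mem h.φ_mem.1
  have PA := hC.Γ_mem hB h.φ_mem.1 h.φ_mem.1
  have LW := (hC.test_A (h.LT hC hB)).1
  have θT := h.θT hC hB
  have θW := (hC.test_A θT).1
  have wT := h.wT hC hB
  have x1 : MemLp ((1 + r) * C.Γ φ (C.lap φ) : M →ₘ[m] ℝ) 1 m :=
    mem_mul_top wT (hD.Γ_mem1 φW lW)
  have x2 : MemLp ((1 + r) * C.Γ φ (C.Γ φ φ) : M →ₘ[m] ℝ) 1 m :=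
    mem_mul_top wT (hD.Γ_mem1 φW PA.1)
  have x3 : MemLp (C.Γ (C.Γ φ φ) r : M →ₘ[m] ℝ) 1 m := hD.Γ_mem1 PA.1 h.r_mem.1
  have y1 : MemLp (-((1 + r) * C.lap θ + C.Γ θ r) : M →ₘ[m] ℝ) 2 m := by
    refine mem_neg (mem_add (mem_mul_top wT (hC.memLp _ (hC.test_lap_mem θT))) ?_)
    rw [hC.symm _ θW _ h.r_mem.1, h.Γr _ θW]
    exact mem_mul_top wT (hC.memLp _ (hC.Γ_mem hB (h.LT hC hB) θT).1)
  have e0 : C.Γ φ (-((ε / 2) • C.lap φ) - (2 : ℝ)⁻¹ • C.Γ φ φ) =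
      -((ε / 2) • C.Γ φ (C.lap φ)) - (2 : ℝ)⁻¹ • C.Γ φ (C.Γ φ φ) := by
    rw [hD.Γ_sub_right φW (hD.neg_mem (hD.smul_mem _ _ lW)) (hD.smul_mem _ _ PA.1),
      hD.Γ_neg_right φW (hD.smul_mem _ _ lW), hD.Γ_smul_right _ φW lW,
      hD.Γ_smul_right _ φW PA.1]
  have e1 : C.Γ (-((ε / 2) • C.lap φ) - (2 : ℝ)⁻¹ • C.Γ φ φ) φ =
      -((ε / 2) • C.Γ φ (C.lap φ)) - (2 : ℝ)⁻¹ • C.Γ φ (C.Γ φ φ) := by
    rw [hC.symm _ (hD.sub_mem (hD.neg_mem (hD.smul_mem _ _ lW)) (hD.smul_mem _ _ PA.1)) _ φW, e0]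
  have e2 : (1 + r) * (C.Γ (-((ε / 2) • C.lap φ) - (2 : ℝ)⁻¹ • C.Γ φ φ) φ
        + C.Γ φ (-((ε / 2) • C.lap φ) - (2 : ℝ)⁻¹ • C.Γ φ φ)) =
      -(ε • ((1 + r) * C.Γ φ (C.lap φ))) - (1 + r) * C.Γ φ (C.Γ φ φ) := by
    rw [e0, e1]
    have s1 : ε • ((1 + r) * C.Γ φ (C.lap φ)) = (1 + r) * ((ε / 2) • C.Γ φ (C.lap φ))
        + (1 + r) * ((ε / 2) • C.Γ φ (C.lap φ)) := by
      rw [mul_smul_comm, ← add_smul]; congr 1; ring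
    have s2 : (1 + r) * C.Γ φ (C.Γ φ φ) = (1 + r) * ((2 : ℝ)⁻¹ • C.Γ φ (C.Γ φ φ))
        + (1 + r) * ((2 : ℝ)⁻¹ • C.Γ φ (C.Γ φ φ)) := by
      rw [mul_smul_comm, ← add_smul]; norm_num
    rw [s1, s2]
    ring
  have e3 : (1 + r) * C.Γ (C.Γ φ φ) θ = (1 + r) * C.Γ φ (C.Γ φ φ)
      - (ε / 2) • C.Γ (C.Γ φ φ) r := by
    rw [h.φθ hC hB, hD.Γ_sub_right PA.1 φW (hD.smul_mem _ _ LW), hD.Γ_smul_right _ PA.1 LW,
      hC.symm _ PA.1 _ φW, hC.symm _ PA.1 _ LW, hC.symm _ PA.1 _ h.r_mem.1, h.Γr _ PA.1,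
      mul_sub, mul_smul_comm]
  have PP := mem_mul_22 y1 (hC.memLp _ PA.1)
  have QQ : MemLp (-(ε • ((1 + r) * C.Γ φ (C.lap φ))) - (1 + r) * C.Γ φ (C.Γ φ φ) :
      M →ₘ[m] ℝ) 1 m := mem_sub (mem_neg (mem_smul _ x1)) x2
  rw [e2, I_add PP QQ, I_dot hC hB θT h.r_mem PA (hC.memLp _ (hC.test_lap_mem θT)), e3,
    I_sub x2 (mem_smul _ x3), I_sub (mem_neg (mem_smul _ x1)) x2, I_neg, I_smul, I_smul]
  unfold Calc.G2r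
  ring

/-- the derivative of `E|∇u|²` -/
theorem E_B :
    I (-((1 + r) * C.lap θ + C.Γ θ r) * C.Γ u u + (1 + r) *
      (C.Γ ((ε / 2) • C.lap u - (2 : ℝ)⁻¹ • C.Γ u u) u
        + C.Γ u ((ε / 2) • C.lap u - (2 : ℝ)⁻¹ • C.Γ u u))) = -(ε * C.G2r u r) := by
  have hD := hC.toIsDir
  have φW := h.uW hC hB
  have lW := hC.test_lap_mem h.u_mem.1
  have PA := hC.Γ_mem hB h.u_mem.1 h.u_mem.1
  have LW := (hC.test_A (h.LT hC hB)).1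
  have θT := h.θT hC hB
  have θW := (hC.test_A θT).1
  have wT := h.wT hC hB
  have x1 : MemLp ((1 + r) * C.Γ u (C.lap u) : M →ₘ[m] ℝ) 1 m :=
    mem_mul_top wT (hD.Γ_mem1 φW lW)
  have x2 : MemLp ((1 + r) * C.Γ u (C.Γ u u) : M →ₘ[m] ℝ) 1 m :=
    mem_mul_top wT (hD.Γ_mem1 φW PA.1)
  have x3 : MemLp (C.Γ (C.Γ u u) r : M →ₘ[m] ℝ) 1 m := hD.Γ_mem1 PA.1 h.r_mem.1
  have y1 : MemLp (-((1 + r) * C.lap θ + C.Γ θ r) : M →ₘ[m] ℝ) 2 m := by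
    refine mem_neg (mem_add (mem_mul_top wT (hC.memLp _ (hC.test_lap_mem θT))) ?_)
    rw [hC.symm _ θW _ h.r_mem.1, h.Γr _ θW]
    exact mem_mul_top wT (hC.memLp _ (hC.Γ_mem hB (h.LT hC hB) θT).1)
  have e0 : C.Γ u ((ε / 2) • C.lap u - (2 : ℝ)⁻¹ • C.Γ u u) =
      (ε / 2) • C.Γ u (C.lap u) - (2 : ℝ)⁻¹ • C.Γ u (C.Γ u u) := by
    rw [hD.Γ_sub_right φW (hD.smul_mem _ _ lW) (hD.smul_mem _ _ PA.1),
      hD.Γ_smul_right _ φW lW, hD.Γ_smul_right _ φW PA.1]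
  have e1 : C.Γ ((ε / 2) • C.lap u - (2 : ℝ)⁻¹ • C.Γ u u) u =
      (ε / 2) • C.Γ u (C.lap u) - (2 : ℝ)⁻¹ • C.Γ u (C.Γ u u) := by
    rw [hC.symm _ (hD.sub_mem (hD.smul_mem _ _ lW) (hD.smul_mem _ _ PA.1)) _ φW, e0]
  have e2 : (1 + r) * (C.Γ ((ε / 2) • C.lap u - (2 : ℝ)⁻¹ • C.Γ u u) u
        + C.Γ u ((ε / 2) • C.lap u - (2 : ℝ)⁻¹ • C.Γ u u)) =
      ε • ((1 + r) * C.Γ u (C.lap u)) - (1 + r) * C.Γ u (C.Γ u u) := by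
    rw [e0, e1]
    have s1 : ε • ((1 + r) * C.Γ u (C.lap u)) = (1 + r) * ((ε / 2) • C.Γ u (C.lap u))
        + (1 + r) * ((ε / 2) • C.Γ u (C.lap u)) := by
      rw [mul_smul_comm, ← add_smul]; congr 1; ring
    have s2 : (1 + r) * C.Γ u (C.Γ u u) = (1 + r) * ((2 : ℝ)⁻¹ • C.Γ u (C.Γ u u))
        + (1 + r) * ((2 : ℝ)⁻¹ • C.Γ u (C.Γ u u)) := by
      rw [mul_smul_comm, ← add_smul]; norm_num
    rw [s1, s2]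
    ring
  have e3 : (1 + r) * C.Γ (C.Γ u u) θ = (1 + r) * C.Γ u (C.Γ u u)
      + (ε / 2) • C.Γ (C.Γ u u) r := by
    rw [h.uθ hC hB, hD.Γ_add_right PA.1 φW (hD.smul_mem _ _ LW), hD.Γ_smul_right _ PA.1 LW,
      hC.symm _ PA.1 _ φW, hC.symm _ PA.1 _ LW, hC.symm _ PA.1 _ h.r_mem.1, h.Γr _ PA.1,
      mul_add, mul_smul_comm]
  have PP := mem_mul_22 y1 (hC.memLp _ PA.1)
  have QQ : MemLp (ε • ((1 + r) * C.Γ u (C.lap u)) - (1 + r) * C.Γ u (C.Γ u u) :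
      M →ₘ[m] ℝ) 1 m := mem_sub (mem_smul _ x1) x2
  rw [e2, I_add PP QQ, I_dot hC hB θT h.r_mem PA (hC.memLp _ (hC.test_lap_mem θT)), e3,
    I_add x2 (mem_smul _ x3), I_sub (mem_smul _ x1) x2, I_smul, I_smul]
  unfold Calc.G2r
  ring

theorem St.dot2 : MemLp (-((1 + r) * C.lap θ + C.Γ θ r) : M →ₘ[m] ℝ) 2 m := by
  have θT := h.θT hC hB
  have θW := (hC.test_A θT).1
  have wT := h.wT hC hB
  refine mem_neg (mem_add (mem_mul_top wT (hC.memLp _ (hC.test_lap_mem θT))) ?_)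
  rw [hC.symm _ θW _ h.r_mem.1, h.Γr _ θW]
  exact mem_mul_top wT (hC.memLp _ (hC.Γ_mem hB (h.LT hC hB) θT).1)

/-- `Γ(L,g) = ε⁻¹ (Γ(φ,g) - Γ(u,g))` -/
theorem St.ΓL (hg : g ∈ C.W) : C.Γ L g = ε⁻¹ • (C.Γ φ g - C.Γ u g) := by
  have φW := h.φW hC hB
  have uW := h.uW hC hB
  rw [h.L_eq, hC.smul_left _ _ (hC.toIsDir.sub_mem φW uW) _ hg, hC.toIsDir.Γ_sub_left φW uW hg]

/-- `E⟨∇φ,∇u⟩` is constant -/
theorem E_D :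
    I (-((1 + r) * C.lap θ + C.Γ θ r) * C.Γ φ u + (1 + r) *
      (C.Γ (-((ε / 2) • C.lap φ) - (2 : ℝ)⁻¹ • C.Γ φ φ) u
        + C.Γ φ ((ε / 2) • C.lap u - (2 : ℝ)⁻¹ • C.Γ u u))) = 0 := by
  have hD := hC.toIsDir
  have hε := h.hε.ne'
  have φW := h.φW hC hB
  have uW := h.uW hC hB
  have lφ := hC.test_lap_mem h.φ_mem.1
  have lu := hC.test_lap_mem h.u_mem.1
  have P1 := hC.Γ_mem hB h.φ_mem.1 h.φ_mem.1
  have P2 := hC.Γ_mem hB h.φ_mem.1 h.u_mem.1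
  have P3 := hC.Γ_mem hB h.u_mem.1 h.u_mem.1
  have lφA := hC.testI_lap_A hB h.φ_mem
  have luA := hC.testI_lap_A hB h.u_mem
  have LW := (hC.test_A (h.LT hC hB)).1
  have θT := h.θT hC hB
  have θW := (hC.test_A θT).1
  have wT := h.wT hC hB
  have y1 := h.dot2 hC hB
  have mm : ∀ {a b : M →ₘ[m] ℝ}, a ∈ C.W → b ∈ C.W → MemLp ((1 + r) * C.Γ a b : M →ₘ[m] ℝ) 1 m :=
    fun ha hb => mem_mul_top wT (hD.Γ_mem1 ha hb)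
  have m2 : ∀ {a b : M →ₘ[m] ℝ}, a ∈ C.W → b ∈ C.W → MemLp ((1 + r) * (a * b) : M →ₘ[m] ℝ) 1 m :=
    fun ha hb => mem_mul_top wT (mem_mul_22 (hC.memLp _ ha) (hC.memLp _ hb))
  -- the atoms
  have f0 : (1 + r) * (C.Γ (-((ε / 2) • C.lap φ) - (2 : ℝ)⁻¹ • C.Γ φ φ) u
        + C.Γ φ ((ε / 2) • C.lap u - (2 : ℝ)⁻¹ • C.Γ u u)) =
      (ε / 2) • ((1 + r) * C.Γ (C.lap u) φ) - (ε / 2) • ((1 + r) * C.Γ (C.lap φ) u)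
      - (2 : ℝ)⁻¹ • ((1 + r) * C.Γ (C.Γ φ φ) u) - (2 : ℝ)⁻¹ • ((1 + r) * C.Γ (C.Γ u u) φ) := by
    rw [hD.Γ_sub_left (hD.neg_mem (hD.smul_mem _ _ lφ)) (hD.smul_mem _ _ P1.1) uW,
      hD.Γ_neg_left (hD.smul_mem _ _ lφ) uW, hC.smul_left _ _ lφ _ uW,
      hC.smul_left _ _ P1.1 _ uW, hD.Γ_sub_right φW (hD.smul_mem _ _ lu) (hD.smul_mem _ _ P3.1),
      hD.Γ_smul_right _ φW lu, hD.Γ_smul_right _ φW P3.1, hC.symm _ φW _ lu,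
      hC.symm _ φW _ P3.1]
    simp only [← mul_smul_comm]
    ring
  have f1 : (1 + r) * C.Γ (C.Γ φ u) θ = (2 : ℝ)⁻¹ • ((1 + r) * C.Γ (C.Γ φ u) φ)
      + (2 : ℝ)⁻¹ • ((1 + r) * C.Γ (C.Γ φ u) u) := by
    rw [h.θ_eq, hD.Γ_smul_right _ P2.1 (hD.add_mem _ φW _ uW), hD.Γ_add_right P2.1 φW uW,
      mul_smul_comm, mul_add, smul_add]
  -- integration by parts
  have g1 := hC.parts_one_add hB h.φ_mem.1 luA h.r_mem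
  have g2 := hC.parts_one_add hB h.u_mem.1 lφA h.r_mem
  have g3 := hC.parts_one_add hB h.φ_mem.1 (hD.A_sub P2 P3) h.r_mem
  have g4 := hC.parts_one_add hB h.u_mem.1 (hD.A_sub P1 P2) h.r_mem
  have k1 : C.Γ r φ = ε⁻¹ • ((1 + r) * (C.Γ φ φ - C.Γ φ u)) := by
    rw [h.Γr _ φW, h.ΓL hC hB φW, mul_smul_comm, hC.symm _ uW _ φW]
  have k2 : C.Γ r u = ε⁻¹ • ((1 + r) * (C.Γ φ u - C.Γ u u)) := by
    rw [h.Γr _ uW, h.ΓL hC hB uW, mul_smul_comm]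
  have k3 : (C.Γ φ u - C.Γ u u) * C.Γ r φ = (C.Γ φ φ - C.Γ φ u) * C.Γ r u := by
    rw [k1, k2, mul_smul_comm, mul_smul_comm]
    congr 1
    ring
  have k4 : I (C.lap u * C.Γ r φ) = ε⁻¹ * I ((1 + r) * ((C.Γ φ φ - C.Γ φ u) * C.lap u)) := by
    rw [k1, mul_smul_comm, I_smul]
    congr 2
    ring
  have k5 : I (C.lap φ * C.Γ r u) = ε⁻¹ * I ((1 + r) * ((C.Γ φ u - C.Γ u u) * C.lap φ)) := by
    rw [k2, mul_smul_comm, I_smul]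
    congr 2
    ring
  have k6 : I ((1 + r) * C.Γ (C.Γ φ u - C.Γ u u) φ) =
      I ((1 + r) * C.Γ (C.Γ φ u) φ) - I ((1 + r) * C.Γ (C.Γ u u) φ) := by
    rw [hD.Γ_sub_left P2.1 P3.1 φW, mul_sub, I_sub (mm P2.1 φW) (mm P3.1 φW)]
  have k7 : I ((1 + r) * C.Γ (C.Γ φ φ - C.Γ φ u) u) =
      I ((1 + r) * C.Γ (C.Γ φ φ) u) - I ((1 + r) * C.Γ (C.Γ φ u) u) := by
    rw [hD.Γ_sub_left P1.1 P2.1 uW, mul_sub, I_sub (mm P1.1 uW) (mm P2.1 uW)]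
  have k8 : (1 + r) * (C.lap φ * C.lap u) = (1 + r) * (C.lap u * C.lap φ) := by ring
  have PP := mem_mul_22 y1 (hC.memLp _ P2.1)
  have QQ := mem_sub (mem_sub (mem_sub (mem_smul (ε / 2) (mm lu φW)) (mem_smul (ε / 2) (mm lφ uW)))
    (mem_smul (2 : ℝ)⁻¹ (mm P1.1 uW))) (mem_smul (2 : ℝ)⁻¹ (mm P3.1 φW))
  rw [f0, I_add PP QQ, I_dot hC hB θT h.r_mem P2 (hC.memLp _ (hC.test_lap_mem θT)), f1,
    I_add (mem_smul _ (mm P2.1 φW)) (mem_smul _ (mm P2.1 uW)),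
    I_sub (mem_sub (mem_sub (mem_smul (ε / 2) (mm lu φW)) (mem_smul (ε / 2) (mm lφ uW)))
    (mem_smul (2 : ℝ)⁻¹ (mm P1.1 uW))) (mem_smul (2 : ℝ)⁻¹ (mm P3.1 φW)),
    I_sub (mem_sub (mem_smul (ε / 2) (mm lu φW)) (mem_smul (ε / 2) (mm lφ uW)))
    (mem_smul (2 : ℝ)⁻¹ (mm P1.1 uW)),
    I_sub (mem_smul (ε / 2) (mm lu φW)) (mem_smul (ε / 2) (mm lφ uW)),
    I_smul, I_smul, I_smul, I_smul, I_smul, I_smul]
  rw [k3] at g3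
  rw [k4] at g1
  rw [k5, k8] at g2
  rw [k6] at g3
  rw [k7] at g4
  have hε2 : ε * ε⁻¹ = 1 := mul_inv_cancel₀ hε
  set X := I ((1 + r) * ((C.Γ φ φ - C.Γ φ u) * C.lap u))
  set Y := I ((1 + r) * ((C.Γ φ u - C.Γ u u) * C.lap φ))
  set A1 := I ((1 + r) * C.Γ (C.lap u) φ)
  set A2 := I ((1 + r) * C.Γ (C.lap φ) u)
  have z : ε * (A1 - A2) = Y - X := by
    have : A1 - A2 = ε⁻¹ * Y - ε⁻¹ * X := by linarith
    rw [this, mul_sub, ← mul_assoc, ← mul_assoc, hε2]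
    ring
  linarith

/-- the derivative of the entropy -/
theorem E_H :
    I ((1 + r) * L * (ε⁻¹ • ((-((ε / 2) • C.lap φ) - (2 : ℝ)⁻¹ • C.Γ φ φ) -
      ((ε / 2) • C.lap u - (2 : ℝ)⁻¹ • C.Γ u u)))) =
    (I ((1 + r) * C.Γ φ φ) - I ((1 + r) * C.Γ u u)) / (2 * ε) := by
  have hD := hC.toIsDir
  have hε := h.hε.ne'
  have φW := h.φW hC hB
  have uW := h.uW hC hB
  have lφ := hC.test_lap_mem h.φ_mem.1
  have lu := hC.test_lap_mem h.u_mem.1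
  have LA := hC.test_A (h.LT hC hB)
  have θT := h.θT hC hB
  have θW := (hC.test_A θT).1
  have wT := h.wT hC hB
  have lθ := hC.test_lap_mem θT
  have e1 : C.lap θ = (2 : ℝ)⁻¹ • (C.lap φ + C.lap u) := by
    rw [h.θ_eq, hC.lap_smul hB _ (hC.test_add hB h.φ_mem.1 h.u_mem.1),
      hC.lap_add hB h.φ_mem.1 h.u_mem.1]
  have e2 : C.Γ L θ = (2 * ε)⁻¹ • (C.Γ φ φ - C.Γ u u) := by
    rw [h.ΓL hC hB θW, h.θ_eq, hD.Γ_smul_right _ φW (hD.add_mem _ φW _ uW),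
      hD.Γ_smul_right _ uW (hD.add_mem _ φW _ uW), hD.Γ_add_right φW φW uW,
      hD.Γ_add_right uW φW uW, hC.symm _ uW _ φW, ← smul_sub, smul_smul]
    congr 1
    · rw [mul_inv, mul_comm]
    · abel
  have e3 : ε⁻¹ • ((-((ε / 2) • C.lap φ) - (2 : ℝ)⁻¹ • C.Γ φ φ) -
      ((ε / 2) • C.lap u - (2 : ℝ)⁻¹ • C.Γ u u)) = -(C.lap θ) - C.Γ L θ := by
    have c1 : ε⁻¹ * (ε / 2) = (2 : ℝ)⁻¹ := by field_simp
    have c2 : ε⁻¹ * (2 : ℝ)⁻¹ = (2 * ε)⁻¹ := by rw [mul_inv, mul_comm]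
    rw [e1, e2]
    simp only [smul_sub, smul_neg, smul_add, smul_smul, c1, c2]
    abel
  have x1 : MemLp ((1 + r) * (L * C.lap θ) : M →ₘ[m] ℝ) 1 m :=
    mem_mul_top wT (mem_mul_22 (hC.memLp _ LA.1) (hC.memLp _ lθ))
  have x2 : MemLp (L * C.Γ r θ : M →ₘ[m] ℝ) 1 m := mem_mul_top LA.2 (hD.Γ_mem1 h.r_mem.1 θW)
  have x3 : MemLp ((1 + r) * C.Γ φ φ : M →ₘ[m] ℝ) 1 m := mem_mul_top wT (hC.mem1 _ φW)
  have x4 : MemLp ((1 + r) * C.Γ u u : M →ₘ[m] ℝ) 1 m := mem_mul_top wT (hC.mem1 _ uW)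
  have e4 : (1 + r) * L * (-(C.lap θ) - C.Γ L θ) = -((1 + r) * (L * C.lap θ)) - L * C.Γ r θ := by
    rw [h.Γr _ θW]
    ring
  have g1 := hC.parts_one_add hB θT LA h.r_mem
  have e5 : I ((1 + r) * C.Γ L θ) =
      (I ((1 + r) * C.Γ φ φ) - I ((1 + r) * C.Γ u u)) / (2 * ε) := by
    rw [e2, mul_smul_comm, I_smul, mul_sub, I_sub x3 x4, div_eq_inv_mul]
  rw [e3, e4, I_sub (mem_neg x1) x2, I_neg, ← e5]
  linarith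

end

end Vale.Agent.P233.H53
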