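import Vale.Agent.P233.H53.B1a
import Vale.Agent.P233.H53.Real

/-! P233, block B14: `Blk_B1`. -/

set_option linter.all false

open MeasureTheory Filter Topology Set
open scoped ENNReal NNReal

universe u

namespace Vale.Agent.P233.H53

section real

theorem taylor_aux {B : ℝ} (hB : 0 ≤ B) {x y : ℝ} (hx : |x| ≤ B) (hy : |y| ≤ B) :
    |(x * Real.exp x - (Real.exp x - 1)) - (y * Real.exp y - (Real.exp y - 1))
      - y * Real.exp y * (x - y)| ≤ ((1 + B) * Real.exp B) * (x - y) ^ 2 := by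
  set c := (1 + B) * Real.exp B with hc
  have hc0 : 0 ≤ c := by positivity
  have d1 : ∀ z : ℝ, HasDerivAt (fun z => z * Real.exp z) ((1 + z) * Real.exp z) z := by
    intro z
    have := (hasDerivAt_id z).mul (Real.hasDerivAt_exp z)
    refine this.congr_deriv ?_
    simp only [id]; ring
  have lip : ∀ z ∈ uIcc y x, |z * Real.exp z - y * Real.exp y| ≤ c * |x - y| := by
    intro z hz
    have hzI : z ∈ Icc (-B) B := by
      exact uIcc_subset_Icc (abs_le.1 hy) (abs_le.1 hx) hz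
    have h2 := (convex_Icc (-B) B).norm_image_sub_le_of_norm_hasDerivWithin_le
      (f := fun z => z * Real.exp z) (f' := fun z => (1 + z) * Real.exp z) (C := c)
      (fun w hw => (d1 w).hasDerivWithinAt) (fun w hw => ?_) (abs_le.1 hy) hzI
    · refine h2.trans (mul_le_mul_of_nonneg_left ?_ hc0)
      rw [Real.norm_eq_abs]
      have := abs_sub_left_of_mem_uIcc hz
      rw [abs_sub_comm z y, abs_sub_comm x y]
      rw [abs_sub_comm z y] at this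
      rw [abs_sub_comm x y] at this
      exact this
    · rw [Real.norm_eq_abs, abs_mul, abs_of_pos (Real.exp_pos _)]
      refine mul_le_mul ?_ (Real.exp_le_exp.2 hw.2) (Real.exp_pos _).le (by linarith)
      exact (abs_add_le _ _).trans (by rw [abs_one]; linarith [abs_le.2 ⟨hw.1, hw.2⟩])
  have d2 : ∀ z : ℝ, HasDerivAt (fun z => (z * Real.exp z - (Real.exp z - 1))
      - y * Real.exp y * z) (z * Real.exp z - y * Real.exp y) z := by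
    intro z
    have := ((d1 z).sub ((Real.hasDerivAt_exp z).sub_const 1)).sub
      ((hasDerivAt_id z).const_mul (y * Real.exp y))
    refine this.congr_deriv ?_
    ring
  have h3 := (convex_uIcc y x).norm_image_sub_le_of_norm_hasDerivWithin_le
    (f := fun z => (z * Real.exp z - (Real.exp z - 1)) - y * Real.exp y * z)
    (f' := fun z => z * Real.exp z - y * Real.exp y) (C := c * |x - y|)
    (fun w hw => (d2 w).hasDerivWithinAt) (fun w hw => by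
      rw [Real.norm_eq_abs]; exact lip w hw) left_mem_uIcc right_mem_uIcc
  rw [Real.norm_eq_abs, Real.norm_eq_abs] at h3
  have e1 : (x * Real.exp x - (Real.exp x - 1)) - (y * Real.exp y - (Real.exp y - 1))
      - y * Real.exp y * (x - y) = (x * Real.exp x - (Real.exp x - 1)) - y * Real.exp y * x -
      ((y * Real.exp y - (Real.exp y - 1)) - y * Real.exp y * y) := by ring
  rw [e1]
  refine h3.trans (le_of_eq ?_)
  rw [mul_assoc, ← sq, sq_abs]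

end real

variable {M : Type u} [MeasurableSpace M] {m : Measure M} {C : Calc m}
variable {φ u : ℝ → M →ₘ[m] ℝ} {κ ε a b : ℝ}

/-- all facts on a regular pair -/
structure RP (C : Calc m) (ε a b : ℝ) (φ u : ℝ → M →ₘ[m] ℝ) : Prop where
  reg : C.Reg ε a b φ u
  mem : ∀ t ∈ Icc a b, LL ε φ u t ∈ C.TestI ∧ th φ u t ∈ C.TestI ∧ rh ε φ u t - 1 ∈ C.TestI ∧
      (∀ g ∈ C.W, C.Γ (rh ε φ u t - 1) g = rh ε φ u t * C.Γ (LL ε φ u t) g) ∧
      C.lap (rh ε φ u t - 1) =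
        rh ε φ u t * (C.lap (LL ε φ u t) + C.Γ (LL ε φ u t) (LL ε φ u t))
  dρ : ∀ t ∈ Icc a b, C.DerW (Icc a b) (rh ε φ u)
      (-(rh ε φ u t * C.lap (th φ u t) + C.Γ (th φ u t) (rh ε φ u t - 1))) t
  cl : ∀ t ∈ Icc a b, C.CtW (Icc a b) (fun s => C.lap (rh ε φ u s - 1)) t
  bd : ∃ B : ℝ, ∀ t ∈ Icc a b, ∀ᵐ x ∂m, B⁻¹ ≤ rh ε φ u t x ∧ rh ε φ u t x ≤ B ∧
      C.Γ (rh ε φ u t - 1) (rh ε φ u t - 1) x ≤ B ∧ |C.lap (rh ε φ u t - 1) x| ≤ B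

theorem RP.mk' [SigmaFinite m] (h0 : Blk_B0r.{u}) (hC : IsGamma C) (hB : C.BEi κ)
    (hR : C.Reg ε a b φ u) : RP C ε a b φ u := by
  obtain ⟨h1, h2, h3, h4, h5⟩ := h0 M m C κ hC hB ε a b φ u hR
  exact ⟨hR, h1, h2, h4, h5⟩

section
variable (hC : IsGamma C) (hB : C.BEi κ) (h : RP C ε a b φ u) {t : ℝ} {r : ℕ → ℝ}

include h in
theorem RP.st (ht : t ∈ Icc a b) (hC : IsGamma C) :
    St C ε (φ t) (u t) (rh ε φ u t - 1) (th φ u t) (LL ε φ u t) := by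
  obtain ⟨h1, h2, h3, h4, h5⟩ := h.mem t ht
  exact ⟨h.reg.hε, h.reg.φ_mem t ht, h.reg.u_mem t ht, hC.test_A h3.1, rfl, rfl, fun g hg => by
    rw [add_sub_cancel]; exact h4 g hg⟩

include hC hB h

theorem RP.φW (ht : t ∈ Icc a b) : φ t ∈ C.W := (hC.test_A (h.reg.φ_mem t ht).1).1
theorem RP.uW (ht : t ∈ Icc a b) : u t ∈ C.W := (hC.test_A (h.reg.u_mem t ht).1).1

theorem RP.dφ (ht : t ∈ Icc a b) : C.DW φ
    (-((ε / 2) • C.lap (φ t)) - (2 : ℝ)⁻¹ • C.Γ (φ t) (φ t)) (Icc a b) t := by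
  have hD := hC.toIsDir
  refine dw_of_derW (h.reg.dφ t ht) (fun r hr => hD.sub_mem (h.φW hC hB hr) (h.φW hC hB ht)) ?_
  exact hD.sub_mem (hD.neg_mem (hD.smul_mem _ _ (hC.test_lap_mem (h.reg.φ_mem t ht).1)))
    (hD.smul_mem _ _ (hC.Γ_mem hB (h.reg.φ_mem t ht).1 (h.reg.φ_mem t ht).1).1)

theorem RP.du (ht : t ∈ Icc a b) : C.DW u
    ((ε / 2) • C.lap (u t) - (2 : ℝ)⁻¹ • C.Γ (u t) (u t)) (Icc a b) t := by
  have hD := hC.toIsDir
  refine dw_of_derW (h.reg.du t ht) (fun r hr => hD.sub_mem (h.uW hC hB hr) (h.uW hC hB ht)) ?_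
  exact hD.sub_mem (hD.smul_mem _ _ (hC.test_lap_mem (h.reg.u_mem t ht).1))
    (hD.smul_mem _ _ (hC.Γ_mem hB (h.reg.u_mem t ht).1 (h.reg.u_mem t ht).1).1)

theorem RP.dw (ht : t ∈ Icc a b) : C.DW (rh ε φ u)
    (-(rh ε φ u t * C.lap (th φ u t) + C.Γ (th φ u t) (rh ε φ u t - 1))) (Icc a b) t := by
  have hD := hC.toIsDir
  obtain ⟨h1, h2, h3, h4, h5⟩ := h.mem t ht
  refine dw_of_derW (h.dρ t ht) (fun r hr => ?_) ?_
  · have e : rh ε φ u r - rh ε φ u t = (rh ε φ u r - 1) - (rh ε φ u t - 1) := by abel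
    rw [e]
    exact hD.sub_mem (hC.test_A (h.mem r hr).2.2.1.1).1 (hC.test_A h3.1).1
  · have e : rh ε φ u t * C.lap (th φ u t) = C.lap (th φ u t) +
      (rh ε φ u t - 1) * C.lap (th φ u t) := by ring
    rw [e]
    exact hD.neg_mem (hD.add_mem _ (hD.add_mem _ (hC.test_lap_mem h2.1) _
      (hD.mul_mem_A (hC.test_A h3.1) (hC.testI_lap_A hB h2)).1) _ (hC.Γ_mem hB h2.1 h3.1).1)

theorem RP.dL (ht : t ∈ Icc a b) : C.DW (LL ε φ u)
    (ε⁻¹ • ((-((ε / 2) • C.lap (φ t)) - (2 : ℝ)⁻¹ • C.Γ (φ t) (φ t)) -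
      ((ε / 2) • C.lap (u t) - (2 : ℝ)⁻¹ • C.Γ (u t) (u t)))) (Icc a b) t :=
  hC.toIsDir.DW_smul ε⁻¹ (hC.toIsDir.DW_sub (h.dφ hC hB ht) (h.du hC hB ht))

theorem RP.wT (ht : t ∈ Icc a b) : MemLp (rh ε φ u t) ∞ m := by
  have := (hC.test_A (h.mem t ht).2.2.1.1).2
  have e : rh ε φ u t = 1 + (rh ε φ u t - 1) := by rw [add_sub_cancel]
  rw [e]
  exact mem_add mem_top_one this

theorem RP.G2eq (f : M →ₘ[m] ℝ) : C.G2 f (rh ε φ u t) = C.G2r f (rh ε φ u t - 1) := by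
  unfold Calc.G2 Calc.G2r
  rw [add_sub_cancel]

theorem RP.ΓφB : ∃ K : ℝ, ∀ r ∈ Icc a b, ∀ᵐ x ∂m, C.Γ (φ r) (φ r) x ≤ K := by
  obtain ⟨B, hBd⟩ := h.reg.bdd
  exact ⟨B, fun r hr => (hBd r hr).mono fun x hx => hx.2.2.1⟩

theorem RP.ΓuB : ∃ K : ℝ, ∀ r ∈ Icc a b, ∀ᵐ x ∂m, C.Γ (u r) (u r) x ≤ K := by
  obtain ⟨B, hBd⟩ := h.reg.bdd
  exact ⟨B, fun r hr => (hBd r hr).mono fun x hx => hx.2.2.2.1⟩

theorem RP.hEA (ht : t ∈ Icc a b) :
    HasDerivWithinAt (C.EA ε φ u) (ε * C.G2 (φ t) (rh ε φ u t)) (Icc a b) t := by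
  have h1 := DL1_wΓ hC.toIsDir ht (hC.toIsDir.DW_DL2 (h.dw hC hB ht))
    (fun r hr => h.wT hC hB hr) (h.dφ hC hB ht) (fun r hr => h.φW hC hB hr)
    (h.dφ hC hB ht) (fun r hr => h.φW hC hB hr) (h.ΓφB hC hB)
  have h2 := h1.I_hasDeriv (fun r hr => mem_mul_top (h.wT hC hB hr)
    (hC.toIsDir.Γ_mem1 (h.φW hC hB hr) (h.φW hC hB hr)))
    (mem_mul_top (h.wT hC hB ht) (hC.toIsDir.Γ_mem1 (h.φW hC hB ht) (h.φW hC hB ht)))
  have h3 := E_A hC hB (h.st ht hC)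
  rw [add_sub_cancel] at h3
  rw [h3, ← h.G2eq hC hB] at h2
  exact h2

theorem RP.hEB (ht : t ∈ Icc a b) :
    HasDerivWithinAt (C.EB ε φ u) (-(ε * C.G2 (u t) (rh ε φ u t))) (Icc a b) t := by
  have h1 := DL1_wΓ hC.toIsDir ht (hC.toIsDir.DW_DL2 (h.dw hC hB ht))
    (fun r hr => h.wT hC hB hr) (h.du hC hB ht) (fun r hr => h.uW hC hB hr)
    (h.du hC hB ht) (fun r hr => h.uW hC hB hr) (h.ΓuB hC hB)
  have h2 := h1.I_hasDeriv (fun r hr => mem_mul_top (h.wT hC hB hr)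
    (hC.toIsDir.Γ_mem1 (h.uW hC hB hr) (h.uW hC hB hr)))
    (mem_mul_top (h.wT hC hB ht) (hC.toIsDir.Γ_mem1 (h.uW hC hB ht) (h.uW hC hB ht)))
  have h3 := E_B hC hB (h.st ht hC)
  rw [add_sub_cancel] at h3
  rw [h3, ← h.G2eq hC hB] at h2
  exact h2

theorem RP.hED (ht : t ∈ Icc a b) :
    HasDerivWithinAt (fun t => I (rh ε φ u t * C.Γ (φ t) (u t))) 0 (Icc a b) t := by
  have h1 := DL1_wΓ hC.toIsDir ht (hC.toIsDir.DW_DL2 (h.dw hC hB ht))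
    (fun r hr => h.wT hC hB hr) (h.dφ hC hB ht) (fun r hr => h.φW hC hB hr)
    (h.du hC hB ht) (fun r hr => h.uW hC hB hr) (h.ΓφB hC hB)
  have h2 := h1.I_hasDeriv (fun r hr => mem_mul_top (h.wT hC hB hr)
    (hC.toIsDir.Γ_mem1 (h.φW hC hB hr) (h.uW hC hB hr)))
    (mem_mul_top (h.wT hC hB ht) (hC.toIsDir.Γ_mem1 (h.φW hC hB ht) (h.uW hC hB ht)))
  have h3 := E_D hC hB (h.st ht hC)
  rw [add_sub_cancel] at h3
  rw [h3] at h2
  exact h2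

theorem RP.dconst (ht : t ∈ Icc a b) :
    I (rh ε φ u t * C.Γ (φ t) (u t)) = I (rh ε φ u b * C.Γ (φ b) (u b)) := by
  have hb : b ∈ Icc a b := ⟨h.reg.hab.le, le_rfl⟩
  have h1 := le_of_deriv_ge (κ := 0) (fun t ht => h.hED hC hB ht) (fun t _ => by simp) ht hb ht.2
  have h2 := le_of_deriv_ge (κ := 0) (fun t ht => (h.hED hC hB ht).neg) (fun t _ => by simp)
    ht hb ht.2
  simp only [zero_mul, add_zero, Pi.neg_apply] at h1 h2
  linarith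

theorem RP.LB : ∃ B : ℝ, 0 ≤ B ∧ ∀ t ∈ Icc a b, ∀ᵐ x ∂m, |LL ε φ u t x| ≤ B ∧
    C.Γ (LL ε φ u t) (LL ε φ u t) x ≤ B := by
  obtain ⟨B, hBd⟩ := h.reg.bdd
  have hε := h.reg.hε
  refine ⟨ε⁻¹ * (2 * |B|) + ε⁻¹ ^ 2 * (4 * |B|), by positivity, fun t ht => ?_⟩
  have e1 : C.Γ (LL ε φ u t) (LL ε φ u t) = (ε⁻¹ ^ 2) • C.Γ (φ t - u t) (φ t - u t) := by
    have hm := hC.toIsDir.sub_mem (h.φW hC hB ht) (h.uW hC hB ht)
    show C.Γ (ε⁻¹ • (φ t - u t)) (ε⁻¹ • (φ t - u t)) = _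
    rw [hC.smul_left _ _ hm _ (hC.smul_mem _ _ hm), hC.toIsDir.Γ_smul_right _ hm hm, smul_smul, sq]
  filter_upwards [hBd t ht, smul_ae (φ t - u t) ε⁻¹, sub_ae (φ t) (u t),
    smul_ae (C.Γ (φ t - u t) (φ t - u t)) (ε⁻¹ ^ 2),
    hC.toIsDir.Γ_sub_le (h.φW hC hB ht) (h.uW hC hB ht)] with x a1 a2 a3 a4 a5
  have hB0 := le_abs_self B
  constructor
  · have : LL ε φ u t x = ε⁻¹ * (φ t x - u t x) := by
      show (ε⁻¹ • (φ t - u t) : M →ₘ[m] ℝ) x = _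
      rw [a2, a3]
    rw [this, abs_mul, abs_of_pos (inv_pos.2 hε)]
    have : |φ t x - u t x| ≤ 2 * |B| := (abs_sub _ _).trans (by linarith [a1.1, a1.2.1])
    have h4 : 0 ≤ ε⁻¹ ^ 2 * (4 * |B|) := by positivity
    have := mul_le_mul_of_nonneg_left this (inv_pos.2 hε).le
    linarith
  · rw [e1, a4]
    have : C.Γ (φ t - u t) (φ t - u t) x ≤ 4 * |B| := by linarith [a1.2.2.1, a1.2.2.2.1]
    have := mul_le_mul_of_nonneg_left this (by positivity : (0:ℝ) ≤ ε⁻¹ ^ 2)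
    have h4 : 0 ≤ ε⁻¹ * (2 * |B|) := by positivity
    linarith

theorem RP.hH (ht : t ∈ Icc a b) :
    HasDerivWithinAt (EntB m ε φ u) ((C.EA ε φ u t - C.EB ε φ u t) / (2 * ε)) (Icc a b) t := by
  obtain ⟨B, hB0, hBL⟩ := h.LB hC hB
  have hL2 : ∀ r ∈ Icc a b, MemLp (LL ε φ u r) 2 m := fun r hr =>
    hC.memLp _ (hC.test_A (h.mem r hr).1.1).1
  have hF : ∀ r ∈ Icc a b, ∀ᵐ x ∂m, (rh ε φ u r * LL ε φ u r - (rh ε φ u r - 1) : M →ₘ[m] ℝ) x =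
      LL ε φ u r x * Real.exp (LL ε φ u r x) - (Real.exp (LL ε φ u r x) - 1) := by
    intro r hr
    filter_upwards [sub_ae (rh ε φ u r * LL ε φ u r) (rh ε φ u r - 1),
      mul_ae (rh ε φ u r) (LL ε φ u r), sub_ae (rh ε φ u r) (1 : M →ₘ[m] ℝ),
      one_ae (M := M) (m := m),
      AEEqFun.coeFn_comp Real.exp Real.continuous_exp (LL ε φ u r)] with x a1 a2 a3 a4 a5
    have a6 : rh ε φ u r x = Real.exp (LL ε φ u r x) := a5
    rw [a1, a2, a3, a4, a6]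
    ring
  have hF1 : ∀ r ∈ Icc a b, MemLp (rh ε φ u r * LL ε φ u r - (rh ε φ u r - 1) : M →ₘ[m] ℝ) 1 m := by
    intro r hr
    refine mem_of_le (g := ((1 + B) * Real.exp B) • LL ε φ u r ^ 2)
      (mem_smul _ (mem_sq (hL2 r hr))) ?_
    filter_upwards [hF r hr, smul_ae (LL ε φ u r ^ 2) ((1 + B) * Real.exp B),
      sq_ae (LL ε φ u r), hBL r hr] with x a1 a2 a3 a4
    rw [a1, a2, a3]
    have := taylor_aux hB0 a4.1 (y := 0) (by rw [abs_zero]; exact hB0)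
    simp only [zero_mul, sub_zero, Real.exp_zero, sub_self] at this
    exact this.trans (le_abs_self _)
  have h1 := DL1_taylor hC.toIsDir (G := fun x => x * Real.exp x - (Real.exp x - 1))
    (G1 := fun x => x * Real.exp x)
    (F := fun r => rh ε φ u r * LL ε φ u r - (rh ε φ u r - 1))
    (q := rh ε φ u t * LL ε φ u t) (B := B) (c := (1 + B) * Real.exp B) ht
    (hC.toIsDir.DW_DL2 (h.dL hC hB ht)) (fun r hr => (hBL r hr).mono fun x hx => hx.1)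
    (fun x y hx hy => taylor_aux hB0 hx hy) hF hF1 (by
      filter_upwards [mul_ae (rh ε φ u t) (LL ε φ u t),
        AEEqFun.coeFn_comp Real.exp Real.continuous_exp (LL ε φ u t)] with x a1 a2
      have a6 : rh ε φ u t x = Real.exp (LL ε φ u t x) := a2
      rw [a1, a6]; ring) (mem_mul_top (h.wT hC hB ht) (hL2 t ht))
  have h2 := h1.I_hasDeriv hF1 (hF1 t ht)
  have h3 := E_H hC hB (h.st ht hC)
  rw [add_sub_cancel] at h3
  rw [h3] at h2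
  exact h2

theorem RP.twφ (ht : t ∈ Icc a b) (hr : Sq (Icc a b) t r) : C.TW (fun n => φ (r n)) (φ t) :=
  tw_of_dw hC.toIsDir (h.dφ hC hB ht) (fun r hr => h.φW hC hB hr) (h.φW hC hB ht) hr

theorem RP.twu (ht : t ∈ Icc a b) (hr : Sq (Icc a b) t r) : C.TW (fun n => u (r n)) (u t) :=
  tw_of_dw hC.toIsDir (h.du hC hB ht) (fun r hr => h.uW hC hB hr) (h.uW hC hB ht) hr

theorem RP.LW (ht : t ∈ Icc a b) : LL ε φ u t ∈ C.W := (hC.test_A (h.mem t ht).1.1).1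

theorem RP.twL (ht : t ∈ Icc a b) (hr : Sq (Icc a b) t r) :
    C.TW (fun n => LL ε φ u (r n)) (LL ε φ u t) :=
  tw_of_dw hC.toIsDir (h.dL hC hB ht) (fun r hr => h.LW hC hB hr) (h.LW hC hB ht) hr

theorem RP.twlφ (ht : t ∈ Icc a b) (hr : Sq (Icc a b) t r) :
    C.TW (fun n => C.lap (φ (r n))) (C.lap (φ t)) :=
  tw_of_ctW (f := fun s => C.lap (φ s)) (h.reg.cφ t ht)
    (fun r hr => hC.test_lap_mem (h.reg.φ_mem r hr).1) (hC.test_lap_mem (h.reg.φ_mem t ht).1) hr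

theorem RP.twlu (ht : t ∈ Icc a b) (hr : Sq (Icc a b) t r) :
    C.TW (fun n => C.lap (u (r n))) (C.lap (u t)) :=
  tw_of_ctW (f := fun s => C.lap (u s)) (h.reg.cu t ht)
    (fun r hr => hC.test_lap_mem (h.reg.u_mem r hr).1) (hC.test_lap_mem (h.reg.u_mem t ht).1) hr

theorem RP.twlw (ht : t ∈ Icc a b) (hr : Sq (Icc a b) t r) :
    C.TW (fun n => C.lap (rh ε φ u (r n) - 1)) (C.lap (rh ε φ u t - 1)) :=
  tw_of_ctW (f := fun s => C.lap (rh ε φ u s - 1)) (h.cl t ht)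
    (fun r hr => hC.test_lap_mem (h.mem r hr).2.2.1.1) (hC.test_lap_mem (h.mem t ht).2.2.1.1) hr

theorem RP.wpos (ht : t ∈ Icc a b) : 0 ≤ rh ε φ u t := by
  rw [nonneg_iff_ae]
  filter_upwards [AEEqFun.coeFn_comp Real.exp Real.continuous_exp (LL ε φ u t)] with x a2
  have a6 : rh ε φ u t x = Real.exp (LL ε φ u t x) := a2
  rw [a6]
  exact (Real.exp_pos _).le

theorem RP.tmw (ht : t ∈ Icc a b) (hr : Sq (Icc a b) t r) :
    Tm (fun n => rh ε φ u (r n)) (rh ε φ u t) := by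
  obtain ⟨B, hBd⟩ := h.bd
  have h1 := (hC.toIsDir.DW_DL2 (h.dw hC hB ht)).seq_sub hr
  refine Tm.of_L2 ⟨B, fun n => ?_⟩ h1.mem ?_
  · filter_upwards [hBd _ (hr.mem n), nonneg_iff_ae.1 (h.wpos hC hB (hr.mem n))] with x a1 a2
    rw [abs_of_nonneg a2]
    exact a1.2.1
  · have := h1.lim
    simpa using this

theorem RP.cG2φ : ContinuousOn (fun t => C.G2 (φ t) (rh ε φ u t)) (Icc a b) := by
  refine contOn_of_seq fun t ht r hr => ?_
  obtain ⟨K, hK⟩ := h.ΓφB hC hB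
  have hD := hC.toIsDir
  have t1 := h.twφ hC hB ht hr
  have t2 : T2 (fun n => C.Γ (φ (r n)) (φ (r n))) (C.Γ (φ t) (φ t)) :=
    hD.TW_Γ2 t1 ⟨K, fun n => hK _ (hr.mem n)⟩ t1
  have t3 := h.twlw hC hB ht hr
  have t3' : T2 (fun n => C.lap (rh ε φ u (r n) - 1)) (C.lap (rh ε φ u t - 1)) :=
    ⟨fun n => hC.memLp _ (t3.mem n), hC.memLp _ t3.mem', hD.tendsto_I_sq_of_nrm2 t3.mem t3.mem' t3.lim⟩
  have t4 := (t3'.mul t2).I_lim
  have t5 := ((h.tmw hC hB ht hr).mul1 (hD.TW_Γ1 t1 (h.twlφ hC hB ht hr))).I_lim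
  have e : ∀ s ∈ Icc a b, C.G2 (φ s) (rh ε φ u s) =
      2⁻¹ * I (C.lap (rh ε φ u s - 1) * C.Γ (φ s) (φ s)) - I (rh ε φ u s * C.Γ (φ s) (C.lap (φ s))) := by
    intro s hs
    have hP := (hC.Γ_mem hB (h.reg.φ_mem s hs).1 (h.reg.φ_mem s hs).1).1
    have hw := (h.mem s hs).2.2.1.1
    have : I (C.Γ (rh ε φ u s - 1) (C.Γ (φ s) (φ s))) =
      -I (C.lap (rh ε φ u s - 1) * C.Γ (φ s) (φ s)) := (hC.test_isLap hw).2.2 _ hP
    unfold Calc.G2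
    rw [hC.symm _ hP _ (hC.test_A hw).1, this]
    ring
  rw [e t ht]
  refine ((t4.const_mul 2⁻¹).sub t5).congr fun n => ?_
  rw [e _ (hr.mem n)]

theorem RP.cG2u : ContinuousOn (fun t => C.G2 (u t) (rh ε φ u t)) (Icc a b) := by
  refine contOn_of_seq fun t ht r hr => ?_
  obtain ⟨K, hK⟩ := h.ΓuB hC hB
  have hD := hC.toIsDir
  have t1 := h.twu hC hB ht hr
  have t2 : T2 (fun n => C.Γ (u (r n)) (u (r n))) (C.Γ (u t) (u t)) :=
    hD.TW_Γ2 t1 ⟨K, fun n => hK _ (hr.mem n)⟩ t1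
  have t3 := h.twlw hC hB ht hr
  have t3' : T2 (fun n => C.lap (rh ε φ u (r n) - 1)) (C.lap (rh ε φ u t - 1)) :=
    ⟨fun n => hC.memLp _ (t3.mem n), hC.memLp _ t3.mem', hD.tendsto_I_sq_of_nrm2 t3.mem t3.mem' t3.lim⟩
  have t4 := (t3'.mul t2).I_lim
  have t5 := ((h.tmw hC hB ht hr).mul1 (hD.TW_Γ1 t1 (h.twlu hC hB ht hr))).I_lim
  have e : ∀ s ∈ Icc a b, C.G2 (u s) (rh ε φ u s) =
      2⁻¹ * I (C.lap (rh ε φ u s - 1) * C.Γ (u s) (u s)) - I (rh ε φ u s * C.Γ (u s) (C.lap (u s))) := by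
    intro s hs
    have hP := (hC.Γ_mem hB (h.reg.u_mem s hs).1 (h.reg.u_mem s hs).1).1
    have hw := (h.mem s hs).2.2.1.1
    have : I (C.Γ (rh ε φ u s - 1) (C.Γ (u s) (u s))) =
      -I (C.lap (rh ε φ u s - 1) * C.Γ (u s) (u s)) := (hC.test_isLap hw).2.2 _ hP
    unfold Calc.G2
    rw [hC.symm _ hP _ (hC.test_A hw).1, this]
    ring
  rw [e t ht]
  refine ((t4.const_mul 2⁻¹).sub t5).congr fun n => ?_
  rw [e _ (hr.mem n)]

theorem RP.cEV : ContinuousOn (C.EV ε φ u) (Icc a b) := by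
  refine contOn_of_seq fun t ht r hr => ?_
  have t1 := h.twL hC hB ht hr
  exact ((h.tmw hC hB ht hr).mul1 (hC.toIsDir.TW_Γ1 t1 t1)).I_lim

theorem RP.cEV4 : ContinuousOn (C.EV4 ε φ u) (Icc a b) := by
  refine contOn_of_seq fun t ht r hr => ?_
  have t1 := h.twL hC hB ht hr
  obtain ⟨B, hB0, hBL⟩ := h.LB hC hB
  have t2 : T2 (fun n => C.Γ (LL ε φ u (r n)) (LL ε φ u (r n))) (C.Γ (LL ε φ u t) (LL ε φ u t)) :=
    hC.toIsDir.TW_Γ2 t1 ⟨B, fun n => (hBL _ (hr.mem n)).mono fun x hx => hx.2⟩ t1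
  have t3 := ((h.tmw hC hB ht hr).mul1 (t2.mul t2)).I_lim
  unfold Calc.EV4
  simp only [sq]
  exact t3

theorem RP.EVeq (ht : t ∈ Icc a b) : ε ^ 2 * C.EV ε φ u t = C.EA ε φ u t + C.EB ε φ u t
      - 2 * I (rh ε φ u t * C.Γ (φ t) (u t)) := by
  have hs := h.st ht hC
  have hε := h.reg.hε.ne'
  have φW := h.φW hC hB ht
  have uW := h.uW hC hB ht
  have LW := h.LW hC hB ht
  have wT := h.wT hC hB ht
  have m1 : MemLp (rh ε φ u t * C.Γ (φ t) (φ t) : M →ₘ[m] ℝ) 1 m := mem_mul_top wT (hC.mem1 _ φW)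
  have m2 : MemLp (rh ε φ u t * C.Γ (u t) (u t) : M →ₘ[m] ℝ) 1 m := mem_mul_top wT (hC.mem1 _ uW)
  have m3 : MemLp (rh ε φ u t * C.Γ (φ t) (u t) : M →ₘ[m] ℝ) 1 m :=
    mem_mul_top wT (hC.toIsDir.Γ_mem1 φW uW)
  have e1 : C.Γ (LL ε φ u t) (LL ε φ u t) = (ε⁻¹ ^ 2) •
      (C.Γ (φ t) (φ t) + C.Γ (u t) (u t) - (2 : ℝ) • C.Γ (φ t) (u t)) := by
    rw [hs.ΓL hC hB LW, hC.symm _ φW _ LW, hC.symm _ uW _ LW, hs.ΓL hC hB φW, hs.ΓL hC hB uW,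
      ← smul_sub, smul_smul, ← sq, hC.symm _ uW _ φW]
    congr 1
    rw [two_smul]
    abel
  unfold Calc.EV Calc.EA Calc.EB
  rw [e1, mul_smul_comm, I_smul, mul_sub, mul_add, mul_smul_comm,
    I_sub (mem_add m1 m2) (mem_smul _ m3), I_add m1 m2, I_smul]
  field_simp

theorem RP.G2sum (ht : t ∈ Icc a b) : C.G2 (φ t) (rh ε φ u t) + C.G2 (u t) (rh ε φ u t) =
      2 * C.G2 (th φ u t) (rh ε φ u t) + ε ^ 2 / 2 * C.G2 (LL ε φ u t) (rh ε φ u t) := by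
  have hs := h.st ht hC
  have θT := hs.θT hC hB
  have LT := hs.LT hC hB
  have e1 : φ t = th φ u t + (ε / 2) • LL ε φ u t :=
    eq_add_of_sub_eq (hs.φθ hC hB).symm
  have e2 : u t = th φ u t - (ε / 2) • LL ε φ u t :=
    eq_sub_of_add_eq (hs.uθ hC hB).symm
  have h1 := hC.G2r_parallel hB θT (hC.test_smul hB (ε / 2) LT) hs.r_mem
  rw [← e1, ← e2, hC.G2r_smul hB _ LT hs.r_mem] at h1
  rw [h.G2eq hC hB, h.G2eq hC hB, h.G2eq hC hB, h.G2eq hC hB, h1]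
  ring

end

/-- B1, from the regularity of the density -/
theorem blk_B1 (h0 : Blk_B0r.{u}) : Blk_B1.{u} := by
  intro M _ m _ C K hC hB ε a b φ u hR
  have h := RP.mk' h0 hC hB hR
  exact ⟨fun t ht => h.hEA hC hB ht, fun t ht => h.hEB hC hB ht, fun t ht => h.dconst hC hB ht,
    fun t ht => h.hH hC hB ht, h.cG2φ hC hB, h.cG2u hC hB, h.cEV hC hB, h.cEV4 hC hB,
    fun t ht => h.EVeq hC hB ht, fun t ht => h.G2sum hC hB ht⟩

end Vale.Agent.P233.H53
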