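import Vale.Agent.P233.H53.B1b

/-! P233, block B14: `Blk_B2`, `Blk_B3`, `Blk_B4`. -/

set_option linter.all false

open MeasureTheory Filter Topology Set
open scoped ENNReal NNReal

universe u

namespace Vale.Agent.P233.H53

variable {M : Type u} [MeasurableSpace M] {m : Measure M} {C : Calc m}
variable {φ u : ℝ → M →ₘ[m] ℝ} {l : M →ₘ[m] ℝ} {K N ε s s' Λ : ℝ}

theorem mono_w {w f g : M →ₘ[m] ℝ} (hw : 0 ≤ w) (hf : MemLp (w * f : M →ₘ[m] ℝ) 1 m)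
    (hg : MemLp (w * g : M →ₘ[m] ℝ) 1 m) (hfg : ∀ᵐ x ∂m, f x ≤ g x) : I (w * f) ≤ I (w * g) := by
  refine I_mono hf hg ?_
  rw [le_iff_ae]
  filter_upwards [mul_ae w f, mul_ae w g, hfg, nonneg_iff_ae.1 hw] with x a1 a2 a3 a4
  rw [a1, a2]
  exact mul_le_mul_of_nonneg_left a3 a4

theorem I_w_le {w f : M →ₘ[m] ℝ} {R : ℝ} (hwR : ∀ᵐ x ∂m, w x ≤ R) (h0 : ∀ᵐ x ∂m, 0 ≤ f x)
    (hf : MemLp f 1 m) (hw : MemLp w ∞ m) : I (w * f) ≤ R * I f := by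
  rw [← I_smul]
  refine I_mono (mem_mul_top hw hf) (mem_smul _ hf) ?_
  rw [le_iff_ae]
  filter_upwards [mul_ae w f, smul_ae f R, hwR, h0] with x a1 a2 a3 a4
  rw [a1, a2]
  exact mul_le_mul_of_nonneg_right a3 a4

theorem I_w_nonneg {w f : M →ₘ[m] ℝ} (hw : 0 ≤ w) (hf : ∀ᵐ x ∂m, 0 ≤ f x) : 0 ≤ I (w * f) := by
  apply I_nonneg
  rw [nonneg_iff_ae]
  filter_upwards [mul_ae w f, hf, nonneg_iff_ae.1 hw] with x a1 a2 a3
  rw [a1]
  exact mul_nonneg a3 a2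

section
variable (hC : IsGamma C) (hB : C.BEi K) (h : RP C ε s 1 φ u) (hL : LvB C ε s Λ l φ u)
include hC hB h hL

theorem lam0 : 0 ≤ Λ :=
  (I_sq_nonneg _).trans (hL.bd.l2 1 ⟨hL.reg.hab.le, le_rfl⟩)

theorem EB_nonneg {t : ℝ} (ht : t ∈ Icc s 1) : 0 ≤ C.EB ε φ u t :=
  I_w_nonneg (h.wpos hC hB ht) (hC.Γ_nonneg_ae (h.uW hC hB ht))

theorem EA_nonneg {t : ℝ} (ht : t ∈ Icc s 1) : 0 ≤ C.EA ε φ u t :=
  I_w_nonneg (h.wpos hC hB ht) (hC.Γ_nonneg_ae (h.φW hC hB ht))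

theorem EB_le {t : ℝ} (ht : t ∈ Icc s 1) : C.EB ε φ u t ≤ Λ ^ 2 := by
  have h1 := I_w_le (hL.bd.rho t ht) (hC.Γ_nonneg_ae (h.uW hC hB ht))
    (hC.mem1 _ (h.uW hC hB ht)) (h.wT hC hB ht)
  have h2 := mul_le_mul_of_nonneg_left (hL.bd.en t ht) (lam0 hC hB h hL)
  unfold Calc.EB
  nlinarith

theorem LL1 : LL ε φ u 1 = l := by
  unfold LL
  rw [hL.fin, add_sub_cancel_left, smul_smul, inv_mul_cancel₀ hL.reg.hε.ne', one_smul]

theorem El_le : I (rh ε φ u 1 * C.Γ l l) ≤ Λ ^ 2 := by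
  have h1m : (1 : ℝ) ∈ Icc s 1 := ⟨hL.reg.hab.le, le_rfl⟩
  have lW := (hC.test_A hL.l_mem.1).1
  have h1 := I_w_le (hL.bd.rho 1 h1m) (hC.Γ_nonneg_ae lW) (hC.mem1 _ lW) (h.wT hC hB h1m)
  have h2 := mul_le_mul_of_nonneg_left hL.l_en (lam0 hC hB h hL)
  nlinarith

/-- `A(1) - B(1)` -/
theorem AB_end : |C.EA ε φ u 1 - C.EB ε φ u 1| ≤ 3 * ε * Λ ^ 2 := by
  have h1m : (1 : ℝ) ∈ Icc s 1 := ⟨hL.reg.hab.le, le_rfl⟩
  have hε := hL.reg.hε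
  have lW := (hC.test_A hL.l_mem.1).1
  have uW := h.uW hC hB h1m
  have wT := h.wT hC hB h1m
  have w0 := h.wpos hC hB h1m
  have m1 : MemLp (rh ε φ u 1 * C.Γ (u 1) (u 1) : M →ₘ[m] ℝ) 1 m :=
    mem_mul_top wT (hC.mem1 _ uW)
  have m2 : MemLp (rh ε φ u 1 * C.Γ (u 1) l : M →ₘ[m] ℝ) 1 m :=
    mem_mul_top wT (hC.toIsDir.Γ_mem1 uW lW)
  have m3 : MemLp (rh ε φ u 1 * C.Γ l l : M →ₘ[m] ℝ) 1 m := mem_mul_top wT (hC.mem1 _ lW)
  have e1 : C.EA ε φ u 1 = C.EB ε φ u 1 + 2 * ε * I (rh ε φ u 1 * C.Γ (u 1) l)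
      + ε ^ 2 * I (rh ε φ u 1 * C.Γ l l) := by
    unfold Calc.EA Calc.EB
    rw [hL.fin, hC.toIsDir.Γ_expand ε uW lW, mul_add, mul_add, mul_smul_comm, mul_smul_comm,
      I_add (mem_add m1 (mem_smul _ m2)) (mem_smul _ m3), I_add m1 (mem_smul _ m2), I_smul, I_smul]
  have e2 : |2 * I (rh ε φ u 1 * C.Γ (u 1) l)| ≤
      I (rh ε φ u 1 * C.Γ (u 1) (u 1)) + I (rh ε φ u 1 * C.Γ l l) := by
    have p : ∀ c : ℝ, c = 1 ∨ c = -1 → 0 ≤ I (rh ε φ u 1 * C.Γ (u 1) (u 1)) +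
        2 * c * I (rh ε φ u 1 * C.Γ (u 1) l) + I (rh ε φ u 1 * C.Γ l l) := by
      intro c hc
      have hc2 : c ^ 2 = 1 := by rcases hc with h | h <;> simp [h]
      have : I (rh ε φ u 1 * C.Γ (u 1 + c • l) (u 1 + c • l)) =
          I (rh ε φ u 1 * C.Γ (u 1) (u 1)) +
          2 * c * I (rh ε φ u 1 * C.Γ (u 1) l) + I (rh ε φ u 1 * C.Γ l l) := by
        rw [hC.toIsDir.Γ_expand c uW lW, mul_add, mul_add, mul_smul_comm, mul_smul_comm,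
          I_add (mem_add m1 (mem_smul _ m2)) (mem_smul _ m3), I_add m1 (mem_smul _ m2), I_smul,
          I_smul, hc2, one_mul]
      rw [← this]
      exact I_w_nonneg w0 (hC.Γ_nonneg_ae (hC.add_mem _ uW _ (hC.smul_mem _ _ lW)))
    rw [abs_le]
    constructor
    · linarith [p 1 (Or.inl rfl)]
    · linarith [p (-1) (Or.inr rfl)]
  have e3 := EB_le hC hB h hL h1m
  have e4 := El_le hC hB h hL
  have e5 : 0 ≤ I (rh ε φ u 1 * C.Γ l l) := I_w_nonneg w0 (hC.Γ_nonneg_ae lW)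
  have e6 : C.EB ε φ u 1 = I (rh ε φ u 1 * C.Γ (u 1) (u 1)) := rfl
  rw [e6] at e3
  have e7 : ε ^ 2 ≤ ε := by nlinarith [hL.hε1]
  rw [e1]
  have : C.EB ε φ u 1 + 2 * ε * I (rh ε φ u 1 * C.Γ (u 1) l)
      + ε ^ 2 * I (rh ε φ u 1 * C.Γ l l) - C.EB ε φ u 1 =
      ε * (2 * I (rh ε φ u 1 * C.Γ (u 1) l)) + ε ^ 2 * I (rh ε φ u 1 * C.Γ l l) := by ring
  rw [this]
  refine (abs_add_le _ _).trans ?_
  rw [abs_mul ε, abs_of_pos hε, abs_of_nonneg (mul_nonneg (sq_nonneg ε) e5)]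
  have e8 := mul_le_mul_of_nonneg_left (e2.trans (add_le_add e3 e4)) hε.le
  have e9 : ε ^ 2 * I (rh ε φ u 1 * C.Γ l l) ≤ ε * Λ ^ 2 :=
    mul_le_mul e7 e4 e5 hε.le
  linarith

theorem EA_end : C.EA ε φ u 1 ≤ 4 * Λ ^ 2 := by
  have h1 := (abs_le.1 (AB_end hC hB h hL)).2
  have h2 := EB_le hC hB h hL ⟨hL.reg.hab.le, le_rfl⟩
  have h3 := hL.hε1
  have h4 := hL.reg.hε
  nlinarith [sq_nonneg Λ, mul_le_mul_of_nonneg_right h3 (sq_nonneg Λ)]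

/-- Gronwall bound of `A` -/
theorem EA_le (hG : ∀ t ∈ Icc s 1, K * C.EA ε φ u t ≤ C.G2 (φ t) (rh ε φ u t)) {t : ℝ}
    (ht : t ∈ Icc s 1) : C.EA ε φ u t ≤ 4 * Λ ^ 2 * Real.exp |K| := by
  have h1m : (1 : ℝ) ∈ Icc s 1 := ⟨hL.reg.hab.le, le_rfl⟩
  have hε := hL.reg.hε
  have key := le_of_deriv_ge (κ := 0) (h := fun t => C.EA ε φ u t * Real.exp (|K| * t))
    (h' := fun t => ε * C.G2 (φ t) (rh ε φ u t) * Real.exp (|K| * t)
      + C.EA ε φ u t * (Real.exp (|K| * t) * (|K| * 1))) (fun t ht => by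
      have h1 := h.hEA hC hB ht
      have h2 : HasDerivWithinAt (fun t : ℝ => Real.exp (|K| * t)) (Real.exp (|K| * t) * (|K| * 1))
          (Icc s 1) t := (((hasDerivAt_id t).const_mul |K|).exp).hasDerivWithinAt
      exact h1.mul h2) (fun t ht => by
      have a1 := hG t ht
      have a2 := EA_nonneg hC hB h hL ht
      have a3 : -|K| ≤ K := neg_abs_le K
      have a4 : -(|K| * C.EA ε φ u t) ≤ ε * C.G2 (φ t) (rh ε φ u t) := by
        have b1 : -|K| * C.EA ε φ u t ≤ K * C.EA ε φ u t := mul_le_mul_of_nonneg_right a3 a2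
        have b2 : ε * (-(|K| * C.EA ε φ u t)) ≤ ε * C.G2 (φ t) (rh ε φ u t) :=
          mul_le_mul_of_nonneg_left (by linarith) hε.le
        have b3 : 0 ≤ |K| * C.EA ε φ u t := mul_nonneg (abs_nonneg _) a2
        nlinarith [hL.hε1]
      have a5 : 0 ≤ (ε * C.G2 (φ t) (rh ε φ u t) + |K| * C.EA ε φ u t) * Real.exp (|K| * t) :=
        mul_nonneg (by linarith) (Real.exp_pos _).le
      rw [neg_zero]
      calc (0:ℝ) ≤ _ := a5
        _ = _ := by ring) ht h1m ht.2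
  simp only [zero_mul, add_zero, mul_one] at key
  have k1 : C.EA ε φ u t ≤ C.EA ε φ u t * Real.exp (|K| * t) :=
    le_mul_of_one_le_right (EA_nonneg hC hB h hL ht)
      (Real.one_le_exp (mul_nonneg (abs_nonneg _) (hL.hs.le.trans ht.1)))
  refine k1.trans (key.trans ?_)
  exact mul_le_mul_of_nonneg_right (EA_end hC hB h hL) (Real.exp_pos _).le

theorem Ent_le {t : ℝ} (ht : t ∈ Icc s 1) : |EntB m ε φ u t| ≤ Λ := by
  have hF : ∀ᵐ x ∂m, (rh ε φ u t * LL ε φ u t - (rh ε φ u t - 1) : M →ₘ[m] ℝ) x =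
      LL ε φ u t x * Real.exp (LL ε φ u t x) - (Real.exp (LL ε φ u t x) - 1) ∧
      ((rh ε φ u t - 1) ^ 2 : M →ₘ[m] ℝ) x = (Real.exp (LL ε φ u t x) - 1) ^ 2 := by
    filter_upwards [sub_ae (rh ε φ u t * LL ε φ u t) (rh ε φ u t - 1),
      mul_ae (rh ε φ u t) (LL ε φ u t), sub_ae (rh ε φ u t) (1 : M →ₘ[m] ℝ),
      one_ae (M := M) (m := m), sq_ae (rh ε φ u t - 1),
      AEEqFun.coeFn_comp Real.exp Real.continuous_exp (LL ε φ u t)] with x a1 a2 a3 a4 a7 a5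
    have a6 : rh ε φ u t x = Real.exp (LL ε φ u t x) := a5
    rw [a1, a2, a7, a3, a4, a6]
    exact ⟨by ring, rfl⟩
  have m2 : MemLp ((rh ε φ u t - 1) ^ 2 : M →ₘ[m] ℝ) 1 m :=
    mem_sq (hC.memLp _ (hC.test_A (h.mem t ht).2.2.1.1).1)
  have hle : ∀ᵐ x ∂m, 0 ≤ (rh ε φ u t * LL ε φ u t - (rh ε φ u t - 1) : M →ₘ[m] ℝ) x ∧
      (rh ε φ u t * LL ε φ u t - (rh ε φ u t - 1) : M →ₘ[m] ℝ) x ≤
        ((rh ε φ u t - 1) ^ 2 : M →ₘ[m] ℝ) x := by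
    filter_upwards [hF] with x hx
    rw [hx.1, hx.2]
    set y := LL ε φ u t x
    have e1 := Real.add_one_le_exp y
    have e2 := Real.add_one_le_exp (-y)
    have e3 := Real.exp_pos y
    have e4 : Real.exp (-y) * Real.exp y = 1 := by rw [← Real.exp_add]; simp
    constructor
    · nlinarith [mul_le_mul_of_nonneg_right e2 e3.le]
    · nlinarith [mul_le_mul_of_nonneg_left e1 e3.le]
  have m1 : MemLp (rh ε φ u t * LL ε φ u t - (rh ε φ u t - 1) : M →ₘ[m] ℝ) 1 m := by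
    refine mem_of_le m2 ?_
    filter_upwards [hle] with x hx
    rw [abs_of_nonneg hx.1]
    exact hx.2.trans (le_abs_self _)
  have h0 : 0 ≤ EntB m ε φ u t := by
    apply I_nonneg
    rw [nonneg_iff_ae]
    exact hle.mono fun x hx => hx.1
  rw [abs_of_nonneg h0]
  refine le_trans (I_mono m1 m2 ?_) (hL.bd.l2 t ht)
  rw [le_iff_ae]
  exact hle.mono fun x hx => hx.2

theorem EV_end : ε ^ 2 * C.EV ε φ u 1 ≤ ε * Λ ^ 2 := by
  have e1 : C.EV ε φ u 1 = I (rh ε φ u 1 * C.Γ l l) := by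
    unfold Calc.EV
    rw [LL1 hC hB h hL]
  have h1m : (1 : ℝ) ∈ Icc s 1 := ⟨hL.reg.hab.le, le_rfl⟩
  have e5 : 0 ≤ I (rh ε φ u 1 * C.Γ l l) :=
    I_w_nonneg (h.wpos hC hB h1m) (hC.Γ_nonneg_ae (hC.test_A hL.l_mem.1).1)
  have e7 : ε ^ 2 ≤ ε := by nlinarith [hL.hε1, hL.reg.hε]
  rw [e1]
  exact mul_le_mul e7 (El_le hC hB h hL) e5 hL.reg.hε.le

end

/-- The constants. -/
noncomputable def cA (K Λ : ℝ) : ℝ := 4 * Λ ^ 2 * Real.exp |K|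

noncomputable def cS (K s s' Λ : ℝ) : ℝ :=
  2 * Λ / (s' - s) + 2 * Λ ^ 2 + |K| * cA K Λ * (1 - s)

/-- the basic bounds -/
theorem basic [SigmaFinite m] (hC : IsGamma C) (hB : C.BEi K) (h : RP C ε s 1 φ u)
    (hL : LvB C ε s Λ l φ u) (hss : s < s') (hs1 : s' < 1)
    (hG : ∀ t ∈ Icc s 1, K * C.EA ε φ u t ≤ C.G2 (φ t) (rh ε φ u t))
    (hG' : ∀ t ∈ Icc s 1, K * C.EB ε φ u t ≤ C.G2 (u t) (rh ε φ u t)) :
    (∀ t ∈ Icc s' 1, |C.EA ε φ u t - C.EB ε φ u t| ≤ 2 * ε * cS K s s' Λ) ∧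
    (∀ t ∈ Icc s' 1, ε ^ 2 * C.EV ε φ u t ≤
      ε * (Λ ^ 2 + 2 * (|K| * cA K Λ * (1 - s)) + 4 * cS K s s' Λ)) ∧
    (∫ t in s'..1, (C.G2 (φ t) (rh ε φ u t) + C.G2 (u t) (rh ε φ u t)) / 2 ≤ 2 * cS K s s' Λ) ∧
    (∀ t ∈ Icc s' 1, |C.EA ε φ u t - C.EA ε φ u 1| ≤
      ε * (|K| * cA K Λ * (1 - s) + Λ ^ 2 + 2 * cS K s s' Λ)) := by
  have h1m : (1 : ℝ) ∈ Icc s 1 := ⟨hL.reg.hab.le, le_rfl⟩
  have hε := hL.reg.hε
  have l0 := lam0 hC hB h hL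
  have hA1 : ∀ t ∈ Icc s 1, C.EA ε φ u t ≤ cA K Λ := fun t ht => EA_le hC hB h hL hG ht
  have hA0 : 0 ≤ cA K Λ := by unfold cA; positivity
  have hB1 : ∀ t ∈ Icc s 1, C.EB ε φ u t ≤ cA K Λ := fun t ht => by
    refine (EB_le hC hB h hL ht).trans ?_
    unfold cA
    have : 1 ≤ Real.exp |K| := Real.one_le_exp (abs_nonneg _)
    nlinarith [sq_nonneg Λ]
  have e2 : ∀ t ∈ Icc s 1, ε ^ 2 * C.EV ε φ u t = C.EA ε φ u t + C.EB ε φ u t
      - 2 * I (rh ε φ u 1 * C.Γ (φ 1) (u 1)) := fun t ht => by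
    rw [h.EVeq hC hB ht, h.dconst hC hB ht]
  have hend : |C.EA ε φ u 1 - C.EB ε φ u 1| ≤ 2 * ε * (2 * Λ ^ 2) :=
    (AB_end hC hB h hL).trans (by nlinarith [mul_nonneg hε.le (sq_nonneg Λ)])
  have hend2 : C.EA ε φ u 1 + C.EB ε φ u 1 - 2 * I (rh ε φ u 1 * C.Γ (φ 1) (u 1)) ≤ ε * Λ ^ 2 := by
    rw [← e2 1 h1m]
    exact EV_end hC hB h hL
  obtain ⟨r1, r2, r3, r4⟩ := energy_real (K := K) (C₀ := Λ) (C₁ := cA K Λ) (C₂ := 2 * Λ ^ 2)
    (C₃ := Λ ^ 2) (D := I (rh ε φ u 1 * C.Γ (φ 1) (u 1))) hε hss hs1.le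
    (fun t ht => h.hEA hC hB ht) (fun t ht => h.hEB hC hB ht) (fun t ht => h.hH hC hB ht)
    hG hG' (fun t ht => EA_nonneg hC hB h hL ht) (fun t ht => EB_nonneg hC hB h hL ht)
    hA1 hB1 (fun t ht => Ent_le hC hB h hL ht) hend hend2 (Cs := cS K s s' Λ) rfl
  have hsub : Icc s' 1 ⊆ Icc s 1 := Icc_subset_Icc hss.le le_rfl
  refine ⟨r1, fun t ht => ?_, r4, fun t ht => ?_⟩
  · rw [e2 t (hsub ht)]
    exact r2 t ht
  · have ht' := hsub ht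
    have q1 : C.EA ε φ u t ≤ C.EA ε φ u 1 + ε * (|K| * cA K Λ) * (1 - t) := by
      refine le_of_deriv_ge (κ := ε * (|K| * cA K Λ)) (fun t ht => h.hEA hC hB ht)
        (fun x hx => ?_) ht' h1m ht.2
      have a1 := hG x hx
      have a2 := EA_nonneg hC hB h hL hx
      have a3 : -|K| ≤ K := neg_abs_le K
      have a4 := hA1 x hx
      have a5 : -(|K| * cA K Λ) ≤ C.G2 (φ x) (rh ε φ u x) := by
        nlinarith [mul_le_mul_of_nonneg_left a4 (abs_nonneg K),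
          mul_le_mul_of_nonneg_right a3 a2]
      have := mul_le_mul_of_nonneg_left a5 hε.le
      linarith
    have q2 : ε * (|K| * cA K Λ) * (1 - t) ≤ ε * (|K| * cA K Λ * (1 - s)) := by
      rw [mul_assoc]
      refine mul_le_mul_of_nonneg_left (mul_le_mul_of_nonneg_left (by linarith [ht'.1]) ?_) hε.le
      positivity
    have q3 : 0 ≤ ε ^ 2 * C.EV ε φ u t :=
      mul_nonneg (sq_nonneg _) (I_w_nonneg (h.wpos hC hB ht') (hC.Γ_nonneg_ae (h.LW hC hB ht')))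
    rw [e2 t ht'] at q3
    have q4 := (abs_le.1 (r1 t ht)).1
    have q5 := (abs_le.1 (r1 1 ⟨hs1.le, le_rfl⟩)).2
    have q6 : 0 ≤ cS K s s' Λ := by
      unfold cS
      have : 0 ≤ 2 * Λ / (s' - s) := div_nonneg (by positivity) (by linarith)
      have : 0 ≤ |K| * cA K Λ * (1 - s) :=
        mul_nonneg (by positivity) (by linarith)
      positivity
    have q7 : 0 ≤ |K| * cA K Λ * (1 - s) := mul_nonneg (by positivity) (by linarith)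
    have q8 := mul_nonneg hε.le q6
    have q9 := mul_nonneg hε.le (sq_nonneg Λ)
    have q10 := mul_nonneg hε.le q7
    rw [abs_le]
    constructor <;> nlinarith

section final
variable {E : Type*} [NormedAddCommGroup E] [InnerProductSpace ℝ E]
variable {Gr : (M →ₘ[m] ℝ) → M → E} {U : (M →ₘ[m] ℝ) → (M →ₘ[m] ℝ) → M → E}
variable {D : (M →ₘ[m] ℝ) → (M →ₘ[m] ℝ)}

theorem sq_nonneg_ae (f : M →ₘ[m] ℝ) : ∀ᵐ x ∂m, 0 ≤ (f ^ 2 : M →ₘ[m] ℝ) x := by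
  filter_upwards [sq_ae f] with x hx
  rw [hx]
  exact sq_nonneg _

theorem G2_lower (hD : IsHD C K N Gr U D) {b w : M →ₘ[m] ℝ} (hb : b ∈ C.TestI)
    (hw : w - 1 ∈ C.A) (h0 : 0 ≤ w) : K * I (w * C.Γ b b) ≤ C.G2 b w := by
  have h1 := hD.bochner b hb w hw h0
  have h2 : 0 ≤ I (w * D b ^ 2) := I_w_nonneg h0 (sq_nonneg_ae _)
  linarith

theorem basic' [SigmaFinite m] (h0 : Blk_B0r.{u}) (hct : CtB C K N Gr U D)
    (hL : LvB C ε s Λ l φ u) (hss : s < s') (hs1 : s' < 1) :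
    RP C ε s 1 φ u ∧
    (∀ t ∈ Icc s' 1, |C.EA ε φ u t - C.EB ε φ u t| ≤ 2 * ε * cS K s s' Λ) ∧
    (∀ t ∈ Icc s' 1, ε ^ 2 * C.EV ε φ u t ≤
      ε * (Λ ^ 2 + 2 * (|K| * cA K Λ * (1 - s)) + 4 * cS K s s' Λ)) ∧
    (∫ t in s'..1, (C.G2 (φ t) (rh ε φ u t) + C.G2 (u t) (rh ε φ u t)) / 2 ≤ 2 * cS K s s' Λ) ∧
    (∀ t ∈ Icc s' 1, |C.EA ε φ u t - C.EA ε φ u 1| ≤
      ε * (|K| * cA K Λ * (1 - s) + Λ ^ 2 + 2 * cS K s s' Λ)) ∧
    (∀ t ∈ Icc s 1, 0 ≤ C.EA ε φ u t ∧ C.EA ε φ u t ≤ cA K Λ ∧ 0 ≤ C.EB ε φ u t ∧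
      C.EB ε φ u t ≤ cA K Λ) := by
  have hC := hct.gam
  have hB := hC.bei hct.hN hct.be
  have h := RP.mk' h0 hC hB hL.reg
  have hG : ∀ t ∈ Icc s 1, K * C.EA ε φ u t ≤ C.G2 (φ t) (rh ε φ u t) := fun t ht =>
    G2_lower hct.hd (hL.reg.φ_mem t ht) (hC.test_A (h.mem t ht).2.2.1.1) (h.wpos hC hB ht)
  have hG' : ∀ t ∈ Icc s 1, K * C.EB ε φ u t ≤ C.G2 (u t) (rh ε φ u t) := fun t ht =>
    G2_lower hct.hd (hL.reg.u_mem t ht) (hC.test_A (h.mem t ht).2.2.1.1) (h.wpos hC hB ht)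
  obtain ⟨r1, r2, r3, r4⟩ := basic hC hB h hL hss hs1 hG hG'
  refine ⟨h, r1, r2, r3, r4, fun t ht => ⟨EA_nonneg hC hB h hL ht, EA_le hC hB h hL hG ht,
    EB_nonneg hC hB h hL ht, (EB_le hC hB h hL ht).trans ?_⟩⟩
  unfold cA
  have : 1 ≤ Real.exp |K| := Real.one_le_exp (abs_nonneg _)
  nlinarith [sq_nonneg Λ]

theorem cS_nonneg (hss : s < s') (hs1 : s' < 1) (hΛ : 0 ≤ Λ) : 0 ≤ cS K s s' Λ := by
  unfold cS cA
  have : 0 ≤ 2 * Λ / (s' - s) := div_nonneg (by positivity) (by linarith)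
  have : 0 ≤ |K| * (4 * Λ ^ 2 * Real.exp |K|) * (1 - s) := mul_nonneg (by positivity) (by linarith)
  positivity

end final

theorem blk_B2 (h0 : Blk_B0r.{u}) : Blk_B2.{u} := by
  intro K N s s' Λ hs hss hs1
  refine ⟨(|Λ| ^ 2 + 2 * (|K| * cA K |Λ| * (1 - s)) + 4 * cS K s s' |Λ|) + 2 * cS K s s' |Λ| +
    cA K |Λ| + (|K| * cA K |Λ| * (1 - s) + |Λ| ^ 2 + 2 * cS K s s' |Λ|), ?_⟩
  intro M _ m _ C E _ _ _ Gr U D hct ε l φ u hL t ht
  have hC := hct.gam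
  have hB := hC.bei hct.hN hct.be
  obtain ⟨h, r1, r2, r3, r4, r5⟩ := basic' h0 hct hL hss hs1
  have hΛ := lam0 hC hB h hL
  rw [abs_of_nonneg hΛ]
  have hε := hL.reg.hε
  have ht' : t ∈ Icc s 1 := ⟨hss.le.trans ht.1, ht.2⟩
  have c1 := cS_nonneg (K := K) hss hs1 hΛ
  have c2 : 0 ≤ cA K Λ := by unfold cA; positivity
  have c3 : 0 ≤ |K| * cA K Λ * (1 - s) := mul_nonneg (by positivity) (by linarith)
  have c4 := sq_nonneg Λ
  have a1 := r1 t ht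
  have a2 := r2 t ht
  have a4 := r4 t ht
  have a5 := r5 t ht'
  refine ⟨?_, ?_, by linarith, ?_⟩
  · have : ε * C.EV ε φ u t ≤ Λ ^ 2 + 2 * (|K| * cA K Λ * (1 - s)) + 4 * cS K s s' Λ := by
      have e : ε * (ε * C.EV ε φ u t) ≤
          ε * (Λ ^ 2 + 2 * (|K| * cA K Λ * (1 - s)) + 4 * cS K s s' Λ) := by
        calc ε * (ε * C.EV ε φ u t) = ε ^ 2 * C.EV ε φ u t := by ring
          _ ≤ _ := a2
      exact le_of_mul_le_mul_left e hε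
    linarith
  · refine a1.trans ?_
    have : 2 * ε * cS K s s' Λ = (2 * cS K s s' Λ) * ε := by ring
    rw [this]
    exact mul_le_mul_of_nonneg_right (by linarith) hε.le
  · refine a4.trans ?_
    rw [mul_comm ε]
    exact mul_le_mul_of_nonneg_right (by linarith) hε.le

/-- the majorant of B3 -/
theorem major [SigmaFinite m] {E : Type*} [NormedAddCommGroup E] [InnerProductSpace ℝ E]
    {Gr : (M →ₘ[m] ℝ) → M → E} {U : (M →ₘ[m] ℝ) → (M →ₘ[m] ℝ) → M → E}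
    {D : (M →ₘ[m] ℝ) → (M →ₘ[m] ℝ)} (h0 : Blk_B0r.{u}) (hct : CtB C K N Gr U D)
    (hL : LvB C ε s Λ l φ u) (hss : s < s') (hs1 : s' < 1) {t : ℝ} (ht : t ∈ Icc s' 1) :
    I (rh ε φ u t * D (th φ u t) ^ 2) + ε ^ 2 * I (rh ε φ u t * D (LL ε φ u t) ^ 2)
          + ε ^ 2 * I (rh ε φ u t * C.lap (LL ε φ u t) ^ 2) ≤
      (5 + 4 * N) * ((C.G2 (φ t) (rh ε φ u t) + C.G2 (u t) (rh ε φ u t)) / 2 + |K| * cA K Λ) := by
  have hC := hct.gam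
  have hB := hC.bei hct.hN hct.be
  obtain ⟨h, r1, r2, r3, r4, r5⟩ := basic' h0 hct hL hss hs1
  have ht' : t ∈ Icc s 1 := ⟨hss.le.trans ht.1, ht.2⟩
  have hN := hct.hN
  have w0 := h.wpos hC hB ht'
  have wT := h.wT hC hB ht'
  have hw := hC.test_A (h.mem t ht').2.2.1.1
  have LI := (h.mem t ht').1
  have θI := (h.mem t ht').2.1
  have φW := h.φW hC hB ht'
  have uW := h.uW hC hB ht'
  have b1 := hct.hd.bochner _ θI _ hw w0
  have b2 := hct.hd.bochner _ LI _ hw w0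
  have b3 := hct.hd.bochnerN _ LI _ hw w0
  have g := h.G2sum hC hB ht'
  have ev := h.EVeq hC hB ht'
  have m1 : MemLp (rh ε φ u t * C.Γ (φ t) (φ t) : M →ₘ[m] ℝ) 1 m := mem_mul_top wT (hC.mem1 _ φW)
  have m2 : MemLp (rh ε φ u t * C.Γ (u t) (u t) : M →ₘ[m] ℝ) 1 m := mem_mul_top wT (hC.mem1 _ uW)
  have m3 : MemLp (rh ε φ u t * C.Γ (φ t) (u t) : M →ₘ[m] ℝ) 1 m :=
    mem_mul_top wT (hC.toIsDir.Γ_mem1 φW uW)
  have eθ : I (rh ε φ u t * C.Γ (th φ u t) (th φ u t)) = 4⁻¹ * (C.EA ε φ u t + C.EB ε φ u t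
      + 2 * I (rh ε φ u t * C.Γ (φ t) (u t))) := by
    have e0 : C.Γ (th φ u t) (th φ u t) = (4 : ℝ)⁻¹ • (C.Γ (φ t) (φ t) + (2 : ℝ) • C.Γ (φ t) (u t)
        + C.Γ (u t) (u t)) := by
      show C.Γ ((2 : ℝ)⁻¹ • (φ t + u t)) ((2 : ℝ)⁻¹ • (φ t + u t)) = _
      have hm := hC.add_mem _ φW _ uW
      rw [hC.smul_left _ _ hm _ (hC.smul_mem _ _ hm), hC.toIsDir.Γ_smul_right _ hm hm, smul_smul]
      have := hC.toIsDir.Γ_expand 1 φW uW
      simp only [one_smul, mul_one, one_pow] at this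
      rw [this]
      norm_num
    rw [e0, mul_smul_comm, I_smul, mul_add, mul_add, mul_smul_comm,
      I_add (mem_add m1 (mem_smul _ m3)) m2, I_add m1 (mem_smul _ m3), I_smul]
    unfold Calc.EA Calc.EB
    ring
  have eV : I (rh ε φ u t * C.Γ (LL ε φ u t) (LL ε φ u t)) = C.EV ε φ u t := rfl
  rw [eθ] at b1
  rw [eV] at b2 b3
  obtain ⟨a1, a2, a3, a4⟩ := r5 t ht'
  set GS := (C.G2 (φ t) (rh ε φ u t) + C.G2 (u t) (rh ε φ u t)) / 2 with hGS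
  have hK1 : -(|K| * cA K Λ) ≤ K * ((C.EA ε φ u t + C.EB ε φ u t) / 2) := by
    have q1 : -|K| ≤ K := neg_abs_le K
    have q2 : 0 ≤ (C.EA ε φ u t + C.EB ε φ u t) / 2 := by linarith
    have q3 : (C.EA ε φ u t + C.EB ε φ u t) / 2 ≤ cA K Λ := by linarith
    nlinarith [mul_le_mul_of_nonneg_right q1 q2, mul_le_mul_of_nonneg_left q3 (abs_nonneg K)]
  set X := C.G2 (th φ u t) (rh ε φ u t) - K * (4⁻¹ * (C.EA ε φ u t + C.EB ε φ u t
      + 2 * I (rh ε φ u t * C.Γ (φ t) (u t)))) with hX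
  set Y := C.G2 (LL ε φ u t) (rh ε φ u t) - K * C.EV ε φ u t with hY
  have hXY : X + ε ^ 2 / 4 * Y = GS - K * ((C.EA ε φ u t + C.EB ε φ u t) / 2) := by
    have e5 : ε ^ 2 / 4 * (K * C.EV ε φ u t) = K / 4 * (C.EA ε φ u t + C.EB ε φ u t
      - 2 * I (rh ε φ u t * C.Γ (φ t) (u t))) := by
      rw [← ev]; ring
    rw [hX, hY, hGS, g, mul_sub, e5]
    ring
  have hX0 : 0 ≤ X := (I_w_nonneg w0 (sq_nonneg_ae _)).trans b1
  have hY0 : 0 ≤ Y := (I_w_nonneg w0 (sq_nonneg_ae _)).trans b2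
  have hb3 : I (rh ε φ u t * C.lap (LL ε φ u t) ^ 2) ≤ N * Y := by
    have := mul_le_mul_of_nonneg_left b3 hN.le
    rw [← mul_assoc, mul_inv_cancel₀ hN.ne', one_mul] at this
    exact this
  have he2 := sq_nonneg ε
  have p1 : ε ^ 2 * I (rh ε φ u t * D (LL ε φ u t) ^ 2) ≤ 4 * (ε ^ 2 / 4 * Y) := by
    have := mul_le_mul_of_nonneg_left b2 he2
    linarith
  have p2 : ε ^ 2 * I (rh ε φ u t * C.lap (LL ε φ u t) ^ 2) ≤ 4 * N * (ε ^ 2 / 4 * Y) := by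
    have := mul_le_mul_of_nonneg_left hb3 he2
    linarith
  have hYe : 0 ≤ ε ^ 2 / 4 * Y := mul_nonneg (by positivity) hY0
  have p3 : X + 4 * (ε ^ 2 / 4 * Y) + 4 * N * (ε ^ 2 / 4 * Y) ≤
      (5 + 4 * N) * (X + ε ^ 2 / 4 * Y) := by
    have := mul_nonneg hN.le hX0
    linarith
  have p4 : (5 + 4 * N) * (X + ε ^ 2 / 4 * Y) ≤ (5 + 4 * N) * (GS + |K| * cA K Λ) := by
    refine mul_le_mul_of_nonneg_left ?_ (by linarith)
    rw [hXY]; linarith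
  linarith

theorem blk_B3 (h0 : Blk_B0r.{u}) : Blk_B3.{u} := by
  intro K N s s' Λ hs hss hs1
  refine ⟨(5 + 4 * |N|) * (2 * cS K s s' |Λ| + |K| * cA K |Λ|), ?_⟩
  intro M _ m _ C E _ _ _ Gr U D hct ε l φ u hL
  have hC := hct.gam
  have hB := hC.bei hct.hN hct.be
  obtain ⟨h, r1, r2, r3, r4, r5⟩ := basic' h0 hct hL hss hs1
  have hΛ := lam0 hC hB h hL
  rw [abs_of_nonneg hΛ, abs_of_pos hct.hN]
  have hsub : Icc s' 1 ⊆ Icc s 1 := Icc_subset_Icc hss.le le_rfl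
  have hc : ContinuousOn (fun t => (C.G2 (φ t) (rh ε φ u t) + C.G2 (u t) (rh ε φ u t)) / 2)
      (Icc s' 1) := (((h.cG2φ hC hB).add (h.cG2u hC hB)).div_const 2).mono hsub
  refine ⟨fun t => (5 + 4 * N) * ((C.G2 (φ t) (rh ε φ u t) + C.G2 (u t) (rh ε φ u t)) / 2
    + |K| * cA K Λ), (hc.add continuousOn_const).const_smul (5 + 4 * N) |>.congr fun t _ => rfl, ?_,
    fun t ht => major h0 hct hL hss hs1 ht⟩
  have hN := hct.hN
  have hI : IntervalIntegrable (fun t => (C.G2 (φ t) (rh ε φ u t) + C.G2 (u t) (rh ε φ u t)) / 2)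
      volume s' 1 := (hc.mono (by rw [uIcc_of_le hs1.le])).intervalIntegrable
  rw [intervalIntegral.integral_const_mul]
  refine mul_le_mul_of_nonneg_left ?_ (by linarith)
  rw [intervalIntegral.integral_add hI intervalIntegrable_const, intervalIntegral.integral_const,
    smul_eq_mul]
  have c2 : 0 ≤ |K| * cA K Λ := by unfold cA; positivity
  have : (1 - s') * (|K| * cA K Λ) ≤ |K| * cA K Λ := by
    have : 1 - s' ≤ 1 := by linarith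
    nlinarith
  linarith

theorem blk_B4 (h0 : Blk_B0r.{u}) : Blk_B4.{u} := by
  intro K N s s' Λ hs hss hs1
  obtain ⟨c, hc⟩ := blk_B3 h0 K N s s' Λ hs hss hs1
  refine ⟨8 * c, ?_⟩
  intro M _ m _ C E _ _ _ Gr U D hct ε l φ u hL
  have hC := hct.gam
  have hB := hC.bei hct.hN hct.be
  obtain ⟨e, he1, he2, he3⟩ := hc M m C E Gr U D hct ε l φ u hL
  have h := RP.mk' h0 hC hB hL.reg
  have hsub : Icc s' 1 ⊆ Icc s 1 := Icc_subset_Icc hss.le le_rfl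
  have i1 : IntervalIntegrable (fun t => ε ^ 2 * C.EV4 ε φ u t) volume s' 1 := by
    refine ContinuousOn.intervalIntegrable ?_
    rw [uIcc_of_le hs1.le]
    exact ((h.cEV4 hC hB).mono hsub).const_smul (ε ^ 2) |>.congr fun t _ => rfl
  have i2 : IntervalIntegrable (fun t => 8 * e t) volume s' 1 := by
    refine ContinuousOn.intervalIntegrable ?_
    rw [uIcc_of_le hs1.le]
    exact he1.const_smul (8 : ℝ) |>.congr fun t _ => rfl
  calc ∫ t in s'..1, ε ^ 2 * C.EV4 ε φ u t ≤ ∫ t in s'..1, 8 * e t := by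
        refine intervalIntegral.integral_mono_on hs1.le i1 i2 fun t ht => ?_
        have ht' := hsub ht
        have LI := (h.mem t ht').1
        have hw := hC.test_A (h.mem t ht').2.2.1.1
        have w0 := h.wpos hC hB ht'
        have q := hC.quartic hB (f := LL ε φ u t) (r := rh ε φ u t - 1) (D := D (LL ε φ u t))
          LI.1 hw (by rw [add_sub_cancel]; exact w0)
          (fun g hg => by rw [add_sub_cancel]; exact (h.mem t ht').2.2.2.1 g hg)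
          (hct.hd.mem _ LI.1) (by
            filter_upwards [hct.hd.hess _ LI.1 _ LI.1 _ LI.1,
              hC.Γ_nonneg_ae (hC.test_A LI.1).1] with x a1 a2
            rw [mul_assoc, Real.mul_self_sqrt a2] at a1
            exact a1)
        rw [add_sub_cancel] at q
        have b := he3 t ht
        have p1 : 0 ≤ I (rh ε φ u t * D (th φ u t) ^ 2) := I_w_nonneg w0 (sq_nonneg_ae _)
        have p2 : 0 ≤ I (rh ε φ u t * C.lap (LL ε φ u t) ^ 2) := I_w_nonneg w0 (sq_nonneg_ae _)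
        have p3 := mul_le_mul_of_nonneg_left q (sq_nonneg ε)
        have p4 := mul_nonneg (sq_nonneg ε) p2
        have e4 : C.EV4 ε φ u t = I (rh ε φ u t * C.Γ (LL ε φ u t) (LL ε φ u t) ^ 2) := rfl
        rw [e4]
        linarith
    _ = 8 * ∫ t in s'..1, e t := intervalIntegral.integral_const_mul _ _
    _ ≤ 8 * c := by linarith

end Vale.Agent.P233.H53
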