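import Vale.Agent.P233.H66.Time2
import Vale.Agent.P233.Gig.IfB
import Vale.Agent.P233.H53.Stat

/-! P233, block B14: generic time lemmas on top of helper66's time calculus. -/

set_option linter.all false

open MeasureTheory Filter Topology Set
open scoped ENNReal NNReal

namespace Vale.Agent.P233.H53

variable {M : Type*} [MeasurableSpace M] {m : Measure M} {C : Calc m}
variable {w f g : ℝ → M →ₘ[m] ℝ} {w' f' g' : M →ₘ[m] ℝ} {S : Set ℝ} {t : ℝ} {r : ℕ → ℝ}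

theorem contOn_of_seq {F : ℝ → ℝ}
    (h : ∀ t ∈ S, ∀ r : ℕ → ℝ, Sq S t r → Tendsto (fun n => F (r n)) atTop (𝓝 (F t))) :
    ContinuousOn F S := by
  intro t ht
  rw [← continuousWithinAt_diff_self]
  exact tendsto_of_sq (h t ht)

theorem dw_of_derW (h : C.DerW S f f' t) (hm : ∀ r ∈ S, f r - f t ∈ C.W) (hm' : f' ∈ C.W) :
    C.DW f f' S t := ⟨hm, hm', h⟩

theorem tw_of_ctW (h : C.CtW S f t) (hf : ∀ r ∈ S, f r ∈ C.W) (ht : f t ∈ C.W) (hr : Sq S t r) :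
    C.TW (fun n => f (r n)) (f t) :=
  ⟨fun n => hf _ (hr.mem n), ht, h.comp
    (tendsto_nhdsWithin_iff.2 ⟨hr.lim, Eventually.of_forall hr.mem⟩)⟩

theorem tw_of_dw (hC : IsDir C) (h : C.DW f f' S t) (hf : ∀ r ∈ S, f r ∈ C.W) (ht : f t ∈ C.W)
    (hr : Sq S t r) : C.TW (fun n => f (r n)) (f t) := by
  have h1 := hC.DW_seq_sub h hr
  refine ⟨fun n => hf _ (hr.mem n), ht, ?_⟩
  have h2 := h1.lim
  simpa using h2

/-- the derivative of `w Γ(f,g)` in `L¹` -/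
theorem DL1_wΓ (hC : IsDir C) (ht : t ∈ S) (hw : DL2 w w' S t) (hwT : ∀ r ∈ S, MemLp (w r) ∞ m)
    (hf : C.DW f f' S t) (hfW : ∀ r ∈ S, f r ∈ C.W)
    (hg : C.DW g g' S t) (hgW : ∀ r ∈ S, g r ∈ C.W)
    (hfb : ∃ K : ℝ, ∀ r ∈ S, ∀ᵐ x ∂m, C.Γ (f r) (f r) x ≤ K) :
    DL1 (fun r => w r * C.Γ (f r) (g r))
      (w' * C.Γ (f t) (g t) + w t * (C.Γ f' (g t) + C.Γ (f t) g')) S t := by
  have ftop : MemLp (C.Γ (f t) (f t)) ∞ m := by
    obtain ⟨K, hK⟩ := hfb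
    refine mem_top_iff.2 ⟨K, ?_⟩
    filter_upwards [hK t ht, hC.Γ_nonneg_ae (hfW t ht)] with x a1 a2
    rw [abs_of_nonneg a2]; exact a1
  have m1 : MemLp (w' * C.Γ (f t) (g t) + w t * (C.Γ f' (g t) + C.Γ (f t) g') : M →ₘ[m] ℝ) 1 m :=
    mem_add (mem_mul_22 hw.mem' (hC.Γ_mem2 (hfW t ht) ftop (hgW t ht)))
      (mem_mul_top (hwT t ht) (mem_add (hC.Γ_mem1 hf.mem' (hgW t ht))
        (hC.Γ_mem1 (hfW t ht) hg.mem')))
  refine DL1.of_seq (fun r hr => mem_sub (mem_mul_top (hwT r hr) (hC.Γ_mem1 (hfW r hr) (hgW r hr)))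
    (mem_mul_top (hwT t ht) (hC.Γ_mem1 (hfW t ht) (hgW t ht)))) m1 fun r hr => ?_
  have a1 := hw.seq hr
  have a2 := hC.DW_seq hf hr
  have a3 := hC.DW_seq hg hr
  have a4 := tw_of_dw hC hf hfW (hfW t ht) hr
  have a5 := tw_of_dw hC hg hgW (hgW t ht) hr
  have b1 : T2 (fun n => C.Γ (f (r n)) (g (r n))) (C.Γ (f t) (g t)) := by
    obtain ⟨K, hK⟩ := hfb
    exact hC.TW_Γ2 a4 ⟨K, fun n => hK _ (hr.mem n)⟩ a5
  have b2 := hC.TW_Γ1 a2 a5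
  have b3 := hC.TW_Γ1 (X := fun _ => f t) (x := f t)
    ⟨fun _ => hfW t ht, hfW t ht, by simpa [Calc.nrm2, hC.Γ_zero_left hC.zero_mem, I_zero] using
      (tendsto_const_nhds (x := (0 : ℝ)) (f := (atTop : Filter ℕ)))⟩ a3
  have c1 := (a1.mul b1).add ((Tm.const (hwT t ht)).mul1 (b2.add b3))
  refine ⟨fun n => ?_, c1.mem', ?_⟩
  · exact mem_smul _ (mem_sub (mem_mul_top (hwT _ (hr.mem n))
      (hC.Γ_mem1 (hfW _ (hr.mem n)) (hgW _ (hr.mem n))))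
      (mem_mul_top (hwT t ht) (hC.Γ_mem1 (hfW t ht) (hgW t ht))))
  · refine c1.lim.congr fun n => ?_
    congr 1
    have e1 : C.Γ ((r n - t)⁻¹ • (f (r n) - f t)) (g (r n)) =
        (r n - t)⁻¹ • (C.Γ (f (r n)) (g (r n)) - C.Γ (f t) (g (r n))) := by
      rw [hC.smul_left _ _ (hC.sub_mem (hfW _ (hr.mem n)) (hfW t ht)) _ (hgW _ (hr.mem n)),
        hC.Γ_sub_left (hfW _ (hr.mem n)) (hfW t ht) (hgW _ (hr.mem n))]
    have e2 : C.Γ (f t) ((r n - t)⁻¹ • (g (r n) - g t)) =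
        (r n - t)⁻¹ • (C.Γ (f t) (g (r n)) - C.Γ (f t) (g t)) := by
      rw [hC.Γ_smul_right _ (hfW t ht) (hC.sub_mem (hgW _ (hr.mem n)) (hgW t ht)),
        hC.Γ_sub_right (hfW t ht) (hgW _ (hr.mem n)) (hgW t ht)]
    have e3 : (r n - t)⁻¹ • (w (r n) * C.Γ (f (r n)) (g (r n)) - w t * C.Γ (f t) (g t)) =
        (r n - t)⁻¹ • (w (r n) - w t) * C.Γ (f (r n)) (g (r n)) +
        w t * (C.Γ ((r n - t)⁻¹ • (f (r n) - f t)) (g (r n)) +
          C.Γ (f t) ((r n - t)⁻¹ • (g (r n) - g t))) := by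
      rw [e1, e2, smul_mul_assoc, mul_add, mul_smul_comm, mul_smul_comm, ← smul_add, ← smul_add]
      congr 1
      ring
    rw [e3]

/-- the derivative of `G(f)` in `L¹`, for `G` quadratic up to second order -/
theorem DL1_taylor (hC : IsDir C) {G G1 : ℝ → ℝ} {F : ℝ → M →ₘ[m] ℝ} {q : M →ₘ[m] ℝ} {B c : ℝ}
    (ht : t ∈ S) (hf : DL2 f f' S t) (hfb : ∀ r ∈ S, ∀ᵐ x ∂m, |f r x| ≤ B)
    (hG : ∀ x y : ℝ, |x| ≤ B → |y| ≤ B → |G x - G y - G1 y * (x - y)| ≤ c * (x - y) ^ 2)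
    (hF : ∀ r ∈ S, ∀ᵐ x ∂m, F r x = G (f r x)) (hF1 : ∀ r ∈ S, MemLp (F r) 1 m)
    (hq : ∀ᵐ x ∂m, q x = G1 (f t x)) (hq2 : MemLp q 2 m) :
    DL1 F (q * f') S t := by
  refine DL1.of_seq (fun r hr => mem_sub (hF1 r hr) (hF1 t ht)) (mem_mul_22 hq2 hf.mem')
    fun r hr => ?_
  have a1 := hf.seq hr
  have a2 := hf.seq_sub hr
  have q1 : T2 (fun _ : ℕ => q) q := ⟨fun _ => hq2, hq2, by
    simpa [I_zero] using (tendsto_const_nhds (x := (0 : ℝ)) (f := (atTop : Filter ℕ)))⟩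
  have b1 := q1.mul a1
  have b2 := (a1.mul a2).smul |c|
  rw [mul_zero, smul_zero] at b2
  have m0 : ∀ n, MemLp ((r n - t)⁻¹ • (F (r n) - F t) : M →ₘ[m] ℝ) 1 m := fun n =>
    mem_smul _ (mem_sub (hF1 _ (hr.mem n)) (hF1 t ht))
  have b3 : T1 (fun n => (r n - t)⁻¹ • (F (r n) - F t) - q * ((r n - t)⁻¹ • (f (r n) - f t))) 0 := by
    refine T1.zero_of_le (fun n => mem_sub (m0 n) (b1.mem n)) b2 fun n => ?_
    filter_upwards [sub_ae ((r n - t)⁻¹ • (F (r n) - F t)) (q * ((r n - t)⁻¹ • (f (r n) - f t))),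
      smul_ae (F (r n) - F t) (r n - t)⁻¹, sub_ae (F (r n)) (F t),
      mul_ae q ((r n - t)⁻¹ • (f (r n) - f t)), smul_ae (f (r n) - f t) (r n - t)⁻¹,
      sub_ae (f (r n)) (f t), hF _ (hr.mem n), hF t ht, hq, hfb _ (hr.mem n), hfb t ht,
      smul_ae ((r n - t)⁻¹ • (f (r n) - f t) * (f (r n) - f t)) |c|,
      mul_ae ((r n - t)⁻¹ • (f (r n) - f t)) (f (r n) - f t)]
      with x c1 c2 c3 c4 c5 c6 c7 c8 c9 c10 c11 c12 c13
    rw [c1, c2, c3, c4, c12, c13, c5, c6, c7, c8, c9]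
    have k := hG _ _ c10 c11
    have e1 : (r n - t)⁻¹ * (G (f (r n) x) - G (f t x)) -
        G1 (f t x) * ((r n - t)⁻¹ * (f (r n) x - f t x)) =
        (r n - t)⁻¹ * (G (f (r n) x) - G (f t x) - G1 (f t x) * (f (r n) x - f t x)) := by ring
    rw [e1, abs_mul, abs_mul, abs_mul, abs_mul, abs_abs, mul_assoc |(r n - t)⁻¹|,
      ← abs_mul (f (r n) x - f t x), ← sq, abs_of_nonneg (sq_nonneg (f (r n) x - f t x))]
    calc |(r n - t)⁻¹| * |G (f (r n) x) - G (f t x) - G1 (f t x) * (f (r n) x - f t x)|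
        ≤ |(r n - t)⁻¹| * (|c| * (f (r n) x - f t x) ^ 2) := by
          refine mul_le_mul_of_nonneg_left (k.trans ?_) (abs_nonneg _)
          exact mul_le_mul_of_nonneg_right (le_abs_self _) (sq_nonneg _)
      _ = _ := by ring
  have b4 := b3.add b1
  rw [zero_add] at b4
  refine ⟨m0, b4.mem', b4.lim.congr fun n => ?_⟩
  rw [sub_add_cancel]

end Vale.Agent.P233.H53
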